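import Vale.Agent.P069.Key

open Set

namespace Vale.Agent.P069

lemma seg_self (v : List ℕ) : seg v v = ∅ := by
  simp [seg]

/-- Pointwise step. -/
lemma pointwise {F : Finset (List ℕ)} (hF : IsInit F) {z u : Z}
    (hz : ∀ l, l ∉ F → z.fn l = 0) (hu : ∀ l ∈ F, u.fn l = 0)
    {lam : ℝ} (hl : 0 ≤ lam) (B : List ℕ → ℝ) (σ : List ℕ → ℝ)
    (hσ1 : ∀ v, σ v = 1 ∨ σ v = -1)
    (hσ : ∀ v p, p <:+ v → σ v * (V z.fn v - V z.fn p) < -(lam * B v) →
      ∃ m, p <:+ m ∧ m <:+ v ∧ lam * B v < σ v * (V z.fn v - V z.fn m))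
    (hu1 : ∀ l, σ (vF F l) * V u.fn l ≤ 0) (hu2 : ∀ l, |V u.fn l| ≤ B (vF F l))
    (q : List ℕ × List ℕ) (hq : q.1 <:+ q.2) :
    ∃ m, (if q.1 ∈ F then q.1 else vF F q.2) <:+ m ∧ m <:+ vF F q.2 ∧
      (V (z + lam • u).fn q.2 - V (z + lam • u).fn q.1) ^ 2 ≤
        (V z.fn m - V z.fn (if q.1 ∈ F then q.1 else vF F q.2)) ^ 2 +
        (V z.fn (vF F q.2) - V z.fn m) ^ 2 +
        lam ^ 2 * (V u.fn q.2 - V u.fn q.1) ^ 2 +
        2 * (lam ^ 2 * (if q.1 ∈ F ∧ q.1 ≠ vF F q.2 then B (vF F q.2) ^ 2 else 0)) := by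
  obtain ⟨p, b⟩ := q
  simp only at hq ⊢
  have e1 : V (z + lam • u).fn b - V (z + lam • u).fn p =
      (V z.fn b - V z.fn p) + lam * (V u.fn b - V u.fn p) := by
    rw [Z.fn_add, Z.fn_smul, V_add, V_add, V_smul, V_smul]; ring
  rw [e1, V_eq_vF hz b]
  by_cases hp : p ∈ F
  · rw [if_pos hp]
    have hpv : p <:+ vF F b := suffix_vF hq hp
    by_cases hpe : p = vF F b
    · refine ⟨vF F b, hpv, List.suffix_rfl, ?_⟩
      rw [if_neg (by simp [hpe])]
      rw [← hpe]
      apply le_of_eq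
      ring
    · rw [if_pos ⟨hp, hpe⟩]
      have hup : V u.fn p = 0 := V_eq_zero hF hu hp
      rw [hup, sub_zero]
      by_cases hc : σ (vF F b) * (V z.fn (vF F b) - V z.fn p) < -(lam * B (vF F b))
      · obtain ⟨m, hm1, hm2, hm3⟩ := hσ _ _ hpv hc
        refine ⟨m, hm1, hm2, ?_⟩
        have h := real_case2 (hσ1 _) (hu1 b) (hu2 b) hl hc hm3
        have h2 : 0 ≤ 2 * (lam ^ 2 * B (vF F b) ^ 2) := by positivity
        have e2 : (V z.fn m - V z.fn p) =
            (V z.fn (vF F b) - V z.fn p - (V z.fn (vF F b) - V z.fn m)) := by ring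
        rw [e2]
        linarith
      · rw [not_lt] at hc
        refine ⟨p, List.suffix_rfl, hpv, ?_⟩
        have h := real_case1 (hσ1 _) (hu1 b) (hu2 b) hl hc
        rw [sub_self]
        linarith
  · rw [if_neg hp]
    refine ⟨vF F b, List.suffix_rfl, List.suffix_rfl, ?_⟩
    rw [if_neg (by simp [hp]), V_eq_vF hz p, vF_of_suffix_notMem hF hq hp]
    apply le_of_eq
    ring

lemma core {F : Finset (List ℕ)} (hF : IsInit F) {z u w : Z}
    (hz : ∀ l, l ∉ F → z.fn l = 0) (hu : ∀ l ∈ F, u.fn l = 0) (hw : ∀ l ∈ F, w.fn l = 0)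
    (hz1 : ‖z‖ ≤ 1) (hu1 : ‖u‖ ≤ 1) (hw1 : ‖w‖ ≤ 1)
    {lam : ℝ} (hl : 0 ≤ lam) (T : List ℕ → List ℕ) (σ : List ℕ → ℝ)
    (hT : ∀ v ∈ F, vF F (T v) = v)
    (hσ1 : ∀ v, σ v = 1 ∨ σ v = -1)
    (hσ : ∀ v p, p <:+ v → σ v * (V z.fn v - V z.fn p) < -(lam * |V w.fn (T v)|) →
      ∃ m, p <:+ m ∧ m <:+ v ∧ lam * |V w.fn (T v)| < σ v * (V z.fn v - V z.fn m))
    (huσ : ∀ l, σ (vF F l) * V u.fn l ≤ 0) (huw : ∀ l, |V u.fn l| ≤ |V w.fn (T (vF F l))|) :
    ‖z + lam • u‖ ≤ √(1 + 3 * lam ^ 2) := by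
  classical
  apply norm_le_of_energy (Real.sqrt_nonneg _)
  intro s hs
  rw [Real.sq_sqrt (by positivity)]
  set P : List ℕ × List ℕ → List ℕ := fun q => if q.1 ∈ F then q.1 else vF F q.2 with hP
  set v : List ℕ × List ℕ → List ℕ := fun q => vF F q.2 with hv
  have hpt := fun (q : List ℕ × List ℕ) (hq : q ∈ s) =>
    pointwise hF hz hu hl (fun v => |V w.fn (T v)|) σ hσ1 hσ huσ huw q (hs.suf q hq)
  choose! m hm1 hm2 hm3 using hpt
  have hPv : ∀ q ∈ s, P q <:+ v q := fun q hq => (hm1 q hq).trans (hm2 q hq)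
  -- the family inside F
  have hfamF : IsFam (s ×ˢ (Finset.univ : Finset Bool))
      (fun k => if k.2 then m k.1 else P k.1) (fun k => if k.2 then v k.1 else m k.1) := by
    apply hs.refine _ _ _ Prod.fst
    · intro k hk
      exact (Finset.mem_product.1 hk).1
    · rintro ⟨q, b⟩ hk
      have hq := (Finset.mem_product.1 hk).1
      cases b
      · simpa using hm1 q hq
      · simpa using hm2 q hq
    · rintro ⟨q, b⟩ hk
      have hq := (Finset.mem_product.1 hk).1
      by_cases hqF : q.1 ∈ F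
      · have h1 : q.1 <:+ P q := by simp [hP, hqF]
        cases b
        · simpa using seg_subset h1 ((hm2 q hq).trans (vF_suffix F _))
        · simpa using seg_subset (h1.trans (hm1 q hq)) (vF_suffix F q.2)
      · have h1 : P q = v q := by simp [hP, hv, hqF]
        have h2 : m q = v q := by
          have h3 := hm1 q hq
          have h4 := hm2 q hq
          rw [if_neg hqF] at h3
          exact h4.eq_of_length (le_antisymm h4.length_le h3.length_le)
        cases b
        · simp [h1, h2, seg_self]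
        · simp [h2, seg_self]
    · rintro ⟨q, b⟩ hk ⟨q', b'⟩ hk' hne heq
      simp only at heq
      subst heq
      rw [Finset.disjoint_left]
      intro x hx hx'
      cases b <;> cases b' <;> simp [mem_seg] at hne hx hx'
      · exact hx'.2 hx.1
      · exact hx.2 hx'.1
  have hE1 := energy_le _ _ _ hfamF z
  rw [Finset.sum_product] at hE1
  simp only [Fintype.sum_bool, if_true, Bool.false_eq_true, if_false] at hE1
  -- the family of top segments
  set s' := s.filter (fun q => q.1 ∈ F ∧ q.1 ≠ v q) with hs'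
  have hfamT : IsFam s' (fun q => v q) (fun q => T (v q)) := by
    constructor
    · intro q _
      have := vF_suffix F (T (v q))
      rwa [hT _ (vF_mem hF _)] at this
    · intro q hq r hr hqr
      rw [hs', Finset.coe_filter] at hq hr
      simp only [Set.mem_setOf_eq] at hq hr
      rw [Function.onFun, Finset.disjoint_left]
      intro x hx hx'
      have hvq : ∀ q, vF F (T (v q)) = v q := fun q => hT _ (vF_mem hF _)
      have h1 : vF F x = v q := by
        have h := vF_eq_of_mem_seg hF (b := T (v q)) (s := x)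
        rw [hvq] at h
        exact h hx
      have h2 : vF F x = v r := by
        have h := vF_eq_of_mem_seg hF (b := T (v r)) (s := x)
        rw [hvq] at h
        exact h hx'
      have h3 : v q = v r := h1.symm.trans h2
      have hd := hs.disj hq.1 hr.1 hqr
      rw [Function.onFun, Finset.disjoint_left] at hd
      have hmem : ∀ q ∈ s, q.1 ∈ F → q.1 ≠ v q → v q ∈ seg q.1 q.2 := by
        intro q hq h1 h2
        rw [mem_seg]
        refine ⟨vF_suffix F q.2, fun h => h2 ?_⟩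
        have h3 := suffix_vF (hs.suf q hq) h1
        exact h3.eq_of_length (le_antisymm h3.length_le h.length_le)
      exact hd (hmem q hq.1 hq.2.1 hq.2.2) (h3 ▸ hmem r hr.1 hr.2.1 hr.2.2)
  have hE2 := energy_le _ _ _ hfamT w
  have hE3 := energy_le _ _ _ hs u
  have hE2' : ∑ q ∈ s, (if q.1 ∈ F ∧ q.1 ≠ v q then |V w.fn (T (v q))| ^ 2 else 0) ≤ ‖w‖ ^ 2 := by
    rw [← Finset.sum_filter]
    refine le_trans (le_of_eq ?_) hE2
    apply Finset.sum_congr rfl
    intro q _
    rw [V_eq_zero hF hw (vF_mem hF q.2), sub_zero, sq_abs]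
  calc ∑ q ∈ s, (V (z + lam • u).fn q.2 - V (z + lam • u).fn q.1) ^ 2
      ≤ ∑ q ∈ s, (((V z.fn (v q) - V z.fn (m q)) ^ 2 + (V z.fn (m q) - V z.fn (P q)) ^ 2) +
        lam ^ 2 * (V u.fn q.2 - V u.fn q.1) ^ 2 +
        2 * (lam ^ 2 * (if q.1 ∈ F ∧ q.1 ≠ v q then |V w.fn (T (v q))| ^ 2 else 0))) := by
        apply Finset.sum_le_sum
        intro q hq
        have := hm3 q hq
        simp only [hP, hv]
        linarith
    _ = ∑ q ∈ s, ((V z.fn (v q) - V z.fn (m q)) ^ 2 + (V z.fn (m q) - V z.fn (P q)) ^ 2) +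
        lam ^ 2 * ∑ q ∈ s, (V u.fn q.2 - V u.fn q.1) ^ 2 +
        2 * (lam ^ 2 * ∑ q ∈ s,
          (if q.1 ∈ F ∧ q.1 ≠ v q then |V w.fn (T (v q))| ^ 2 else 0)) := by
        rw [Finset.sum_add_distrib, Finset.sum_add_distrib, Finset.mul_sum, Finset.mul_sum,
          Finset.mul_sum]
    _ ≤ 1 + lam ^ 2 * 1 + 2 * (lam ^ 2 * 1) := by
        have hz2 : ‖z‖ ^ 2 ≤ 1 := by nlinarith [norm_nonneg z]
        have hu2 : ‖u‖ ^ 2 ≤ 1 := by nlinarith [norm_nonneg u]
        have hw2 : ‖w‖ ^ 2 ≤ 1 := by nlinarith [norm_nonneg w]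
        gcongr
        · exact hE1.trans hz2
        · exact hE3.trans hu2
        · exact hE2'.trans hw2
    _ = 1 + 3 * lam ^ 2 := by ring

/-- The split of `w` into a part of sign `σ` and a part of sign `-σ`. -/
lemma split {F : Finset (List ℕ)} (hF : IsInit F) {w : Z} (hw : ∀ l ∈ F, w.fn l = 0)
    (σ : List ℕ → ℝ) (hσ1 : ∀ v, σ v = 1 ∨ σ v = -1) :
    ∃ u : Z, (∀ l ∈ F, u.fn l = 0) ∧
      (∀ l, V u.fn l = (V w.fn l + σ (vF F l) * |V w.fn l|) / 2) ∧ ‖u‖ ≤ ‖w‖ := by
  set U : List ℕ → ℝ := fun l => (V w.fn l + σ (vF F l) * |V w.fn l|) / 2 with hU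
  have hUF : ∀ l ∈ F, U l = 0 := by
    intro l hl
    simp only [hU, V_eq_zero hF hw hl]
    simp
  set f : List ℕ → ℝ := fun l => match l with
    | [] => 0
    | a :: l => U (a :: l) - U l with hf
  have hf0 : ∀ l, w.fn l = 0 → f l = 0 := by
    intro l hl
    cases l with
    | nil => rfl
    | cons a l =>
      simp only [hf]
      have h1 : V w.fn (a :: l) = V w.fn l := by rw [V_cons, hl, add_zero]
      by_cases hm : a :: l ∈ F
      · rw [hUF _ hm, hUF l (hF.closed _ hm _ (List.suffix_cons a l))]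
        simp
      · simp only [hU, h1, vF, if_neg hm]
        simp
  have hfg : ∀ l, ¬ good l → f l = 0 := fun l hl => hf0 l (w.fn_bad hl)
  have hfs : ∀ l, f l ≠ 0 → l ∈ w.supp := by
    intro l hl
    rw [Z.mem_supp]
    intro h
    exact hl (hf0 l h)
  refine ⟨Z.mk' f w.supp hfs hfg, ?_, ?_, ?_⟩
  · intro l hl
    rw [Z.fn_mk']
    exact hf0 l (hw l hl)
  · intro l
    rw [Z.fn_mk']
    have hgoal : V f l = U l := by
      induction l with
      | nil => rw [V_nil, hUF _ hF.nil_mem]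
      | cons a l ih =>
        rw [V_cons, ih]
        simp only [hf]
        ring
    exact hgoal
  · apply norm_le_of_var
    intro p b hpb
    rw [Z.fn_mk']
    have hVf : ∀ l, V f l = U l := by
      intro l
      induction l with
      | nil => rw [V_nil, hUF _ hF.nil_mem]
      | cons a l ih =>
        rw [V_cons, ih]
        simp only [hf]
        ring
    rw [hVf, hVf]
    have habs : ∀ v, |σ v| = 1 := by
      intro v
      rcases hσ1 v with h | h <;> rw [h] <;> simp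
    by_cases hp : p ∈ F
    · rw [hUF p hp, V_eq_zero hF hw hp, sub_zero, sub_zero]
      simp only [hU]
      rw [abs_div, abs_two, div_le_iff₀ two_pos]
      refine (abs_add_le _ _).trans ?_
      rw [abs_mul, habs, abs_abs]
      linarith
    · have hvv := vF_of_suffix_notMem hF hpb hp
      simp only [hU]
      rw [hvv]
      have e : (V w.fn b + σ (vF F p) * |V w.fn b|) / 2 - (V w.fn p + σ (vF F p) * |V w.fn p|) / 2
          = ((V w.fn b - V w.fn p) + σ (vF F p) * (|V w.fn b| - |V w.fn p|)) / 2 := by ring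
      rw [e, abs_div, abs_two, div_le_iff₀ two_pos]
      refine (abs_add_le _ _).trans ?_
      rw [abs_mul, habs]
      have := abs_abs_sub_abs_le_abs_sub (V w.fn b) (V w.fn p)
      linarith

/-- Key inequality. -/
theorem key {F : Finset (List ℕ)} (hF : IsInit F) {z w : Z}
    (hz : ∀ l, l ∉ F → z.fn l = 0) (hw : ∀ l ∈ F, w.fn l = 0)
    (hz1 : ‖z‖ ≤ 1) (hw1 : ‖w‖ ≤ 1) {lam : ℝ} (hl : 0 ≤ lam) :
    ∃ w1 w2 : Z, w = w1 + w2 ∧ (∀ l ∈ F, w1.fn l = 0) ∧ (∀ l ∈ F, w2.fn l = 0) ∧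
      ‖w1‖ ≤ 1 ∧ ‖w2‖ ≤ 1 ∧ ‖z + lam • w1‖ ≤ √(1 + 3 * lam ^ 2) ∧
      ‖z - lam • w2‖ ≤ √(1 + 3 * lam ^ 2) := by
  have hT := exists_top F w
  choose! T hT1 hT2 using hT
  have hS := fun v => exists_sign (V z.fn) (lam * |V w.fn (T v)|) v
  choose σ hσ1 hσ using hS
  have hneg : ∀ v, -σ v = 1 ∨ -σ v = -1 := by
    intro v
    rcases hσ1 v with h | h <;> rw [h] <;> simp
  obtain ⟨w1, h1F, h1V, h1n⟩ := split hF hw (fun v => -σ v) hneg
  obtain ⟨w2, h2F, h2V, h2n⟩ := split hF hw σ hσ1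
  have hσabs : ∀ v, |σ v| = 1 := by
    intro v
    rcases hσ1 v with h | h <;> rw [h] <;> simp
  have hσsq : ∀ v, σ v * σ v = 1 := by
    intro v
    rcases hσ1 v with h | h <;> rw [h] <;> norm_num
  have hTw : ∀ l, |V w.fn l| ≤ |V w.fn (T (vF F l))| := by
    intro l
    exact hT2 (vF F l) (vF_mem hF l) l rfl
  refine ⟨w1, w2, ?_, h1F, h2F, h1n.trans hw1, h2n.trans hw1, ?_, ?_⟩
  · apply Z.ext'
    intro l
    rw [Z.fn_add, Pi.add_apply]
    cases l with
    | nil => rw [w.fn_bad (by simp [good]), w1.fn_bad (by simp [good]), w2.fn_bad (by simp [good])]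
             simp
    | cons a l =>
      have e := V_cons w.fn a l
      have e1 := V_cons w1.fn a l
      have e2 := V_cons w2.fn a l
      rw [h1V, h1V] at e1
      rw [h2V, h2V] at e2
      linarith
  · apply core hF hz h1F hw hz1 (h1n.trans hw1) hw1 hl T σ hT1 hσ1 hσ
    · intro l
      rw [h1V]
      have h3 := neg_abs_le (V w.fn l)
      have h4 := le_abs_self (V w.fn l)
      rcases hσ1 (vF F l) with h | h <;> rw [h] <;> linarith
    · intro l
      rw [h1V]
      refine le_trans ?_ (hTw l)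
      rw [abs_div, abs_two, div_le_iff₀ two_pos]
      refine (abs_add_le _ _).trans ?_
      rw [abs_mul, abs_neg, hσabs, abs_abs]
      linarith
  · have h5 : z - lam • w2 = z + lam • (-w2) := by rw [smul_neg, sub_eq_add_neg]
    rw [h5]
    have hnegfn : (-w2).fn = -w2.fn := by funext l; rfl
    have hVneg : ∀ l, V (-w2).fn l = - V w2.fn l := by
      intro l
      rw [hnegfn, V, V, ← Finset.sum_neg_distrib]
      rfl
    apply core hF hz _ hw hz1 _ hw1 hl T σ hT1 hσ1 hσ
    · intro l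
      rw [hVneg, h2V]
      have h3 := neg_abs_le (V w.fn l)
      have h4 := le_abs_self (V w.fn l)
      rcases hσ1 (vF F l) with h | h <;> rw [h] <;> linarith
    · intro l
      rw [hVneg, abs_neg, h2V]
      refine le_trans ?_ (hTw l)
      rw [abs_div, abs_two, div_le_iff₀ two_pos]
      refine (abs_add_le _ _).trans ?_
      rw [abs_mul, hσabs, abs_abs]
      linarith
    · intro l hl
      rw [hnegfn, Pi.neg_apply, h2F l hl, neg_zero]
    · rw [norm_neg]
      exact h2n.trans hw1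

end Vale.Agent.P069
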