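import Vale.Agent.P069.Reflexive
import Vale.Agent.P069.Core

open Set

namespace Vale.Agent.P069

/-- Restriction off an initial set does not increase the norm. -/
lemma norm_rest_compl_le {F : Finset (List ℕ)} (hF : IsInit F) (w : Z) :
    ‖rest {l | l ∉ F} w‖ ≤ ‖w‖ := by
  classical
  set r := rest {l | l ∉ F} w with hr
  have hfn : ∀ l, r.fn l = if l ∉ F then w.fn l else 0 := by
    intro l
    rw [hr, rest_fn]
    rfl
  have hrF : ∀ l ∈ F, r.fn l = 0 := by
    intro l hl
    rw [hfn, if_neg (by simpa using hl)]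
  have hV : ∀ l, V r.fn l = V w.fn l - V w.fn (vF F l) := by
    intro l
    induction l with
    | nil => rw [vF, V_nil', V_nil']; simp
    | cons a l ih =>
      rw [vF]
      split_ifs with h
      · rw [V_eq_zero hF hrF h, sub_self]
      · rw [V_cons, V_cons, ih, hfn, if_pos h]
        ring
  apply norm_le_of_energy (norm_nonneg _)
  intro s hs
  have hfam : IsFam s (fun q => if q.1 ∈ F then vF F q.2 else q.1) (fun q => q.2) := by
    apply hs.refine _ _ _ id
    · intro q hq; exact hq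
    · intro q hq
      split_ifs
      · exact vF_suffix F _
      · exact hs.suf q hq
    · intro q hq
      split_ifs with h
      · exact seg_subset (suffix_vF (hs.suf q hq) h) List.suffix_rfl
      · exact Finset.Subset.refl _
    · intro q _ q' _ hne heq
      exact absurd heq hne
  refine le_trans (le_of_eq ?_) (energy_le s _ _ hfam w)
  apply Finset.sum_congr rfl
  intro q hq
  split_ifs with h
  · rw [V_eq_zero hF hrF h, hV, sub_zero]
  · rw [hV, hV, vF_of_suffix_notMem hF (hs.suf q hq) h]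
    congr 1
    ring

/-- annihilator subspace -/
noncomputable def ann (F : Finset (List ℕ)) : Submodule ℝ X where
  carrier := {y | ∀ w : Z, (∀ l, l ∉ F → w.fn l = 0) → y w = 0}
  add_mem' := by
    intro x y hx hy w hw
    have : (x + y) w = x w + y w := rfl
    rw [this, hx w hw, hy w hw, add_zero]
  zero_mem' := by
    intro w _
    rfl
  smul_mem' := by
    intro c x hx w hw
    have : (c • x) w = c * x w := rfl
    rw [this, hx w hw, mul_zero]

/-- evaluation on the coordinate vectors in `F` -/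
noncomputable def evalF (F : Finset (List ℕ)) :
    X →ₗ[ℝ] ({l : List ℕ // l ∈ F ∧ good l} → ℝ) where
  toFun y := fun l => y (ev l.1 l.2.2)
  map_add' _ _ := rfl
  map_smul' _ _ := rfl

instance : DecidablePred good := fun l =>
  inferInstanceAs (Decidable (l ≠ [] ∧ l.length ≤ l.getLastD 0))

lemma eq_sum_ev {F : Finset (List ℕ)} (w : Z) (hw : ∀ l, l ∉ F → w.fn l = 0) :
    w = ∑ l ∈ (F.subtype good), w.fn l.1 • ev l.1 l.2 := by
  classical
  apply Z.ext'
  intro l
  rw [Z.fn_sum]
  simp only [Z.fn_smul, Pi.smul_apply, ev_fn, smul_eq_mul, mul_ite, mul_one, mul_zero]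
  by_cases hl : w.fn l = 0
  · rw [hl]
    symm
    apply Finset.sum_eq_zero
    intro i _
    split_ifs with h
    · rw [← h]; exact hl
    · rfl
  · have hg : good l := by
      by_contra hg
      exact hl (w.fn_bad hg)
    have hlF : l ∈ F := by
      by_contra h
      exact hl (hw l h)
    have hmem : (⟨l, hg⟩ : {l : List ℕ // good l}) ∈ F.subtype good := by
      rw [Finset.mem_subtype]; exact hlF
    rw [Finset.sum_eq_single_of_mem _ hmem]
    · simp
    · intro j _ hj
      rw [if_neg]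
      intro h
      exact hj (Subtype.ext h.symm)

lemma ann_eq_ker (F : Finset (List ℕ)) : ann F = LinearMap.ker (evalF F) := by
  classical
  ext y
  rw [LinearMap.mem_ker]
  constructor
  · intro hy
    funext l
    apply hy
    intro s hs
    rw [ev_fn, if_neg]
    rintro rfl
    exact hs l.2.1
  · intro hy w hw
    rw [eq_sum_ev w hw, map_sum]
    apply Finset.sum_eq_zero
    intro l hl
    rw [map_smul]
    have h1 := congrFun hy ⟨l.1, Finset.mem_subtype.1 hl, l.2⟩
    have h2 : y (ev l.1 l.2) = 0 := h1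
    rw [h2, smul_zero]

lemma ann_mem_Cof (F : Finset (List ℕ)) : ann F ∈ Cof X := by
  constructor
  · have : (ann F : Set X) = ⋂ (w : Z) (_ : ∀ l, l ∉ F → w.fn l = 0), {y : X | y w = 0} := by
      ext y
      simp [ann]
    rw [this]
    apply isClosed_iInter
    intro w
    apply isClosed_iInter
    intro _
    exact isClosed_eq (ContinuousLinearMap.apply ℝ ℝ w).continuous continuous_const
  · have hfin : Finite {l : List ℕ // l ∈ F ∧ good l} := by
      apply Finite.of_injective (fun l => (⟨l.1, l.2.1⟩ : F))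
      intro a b hab
      have := congrArg Subtype.val hab
      exact Subtype.ext this
    rw [ann_eq_ker]
    have e := (evalF F).quotKerEquivRange
    have : FiniteDimensional ℝ (LinearMap.range (evalF F)) := inferInstance
    exact Module.Finite.equiv e.symm

/-- Suffix closure of a finite set. -/
def clo (A : Finset (List ℕ)) : Finset (List ℕ) := (insert [] A).biUnion tl

lemma clo_isInit (A : Finset (List ℕ)) : IsInit (clo A) := by
  constructor
  · rw [clo, Finset.mem_biUnion]
    exact ⟨[], Finset.mem_insert_self _ _, by rw [mem_tl]⟩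
  · intro l hl s hs
    rw [clo, Finset.mem_biUnion] at *
    obtain ⟨a, ha, hla⟩ := hl
    rw [mem_tl] at hla
    exact ⟨a, ha, by rw [mem_tl]; exact hs.trans hla⟩

lemma subset_clo (A : Finset (List ℕ)) : A ⊆ clo A := by
  intro l hl
  rw [clo, Finset.mem_biUnion]
  exact ⟨l, Finset.mem_insert_of_mem hl, by rw [mem_tl]⟩

lemma exists_norming (x : X) (hx : ‖x‖ = 1) {ε : ℝ} (hε : 0 < ε) :
    ∃ z : Z, ‖z‖ ≤ 1 ∧ 1 - ε ≤ x z := by
  have hlt : 1 - ε < ‖x‖ := by rw [hx]; linarith
  by_cases h1 : 1 - ε < 0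
  · exact ⟨0, by simp, by rw [map_zero]; exact h1.le⟩
  obtain ⟨z, hz1, hz2⟩ := ContinuousLinearMap.exists_lt_apply_of_lt_opNorm _ hlt
  rcases le_total 0 (x z) with h0 | h0
  · refine ⟨z, hz1.le, ?_⟩
    rw [Real.norm_of_nonneg h0] at hz2
    exact hz2.le
  · refine ⟨-z, by rw [norm_neg]; exact hz1.le, ?_⟩
    rw [Real.norm_of_nonpos h0] at hz2
    rw [map_neg]
    exact hz2.le

/-- Main estimate. -/
theorem amuc_estimate (x : X) (hx : ‖x‖ = 1) {t : ℝ} (ht : 0 < t) {ε : ℝ} (hε : 0 < ε) :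
    ∃ F ∈ Cof X, ∀ y ∈ F, ‖y‖ = 1 →
      √(1 + t ^ 2 / 12) - ε * (1 + t / 6 + t ^ 2 / 12) ≤ max ‖x + t • y‖ ‖x - t • y‖ := by
  classical
  obtain ⟨z, hz1, hz2⟩ := exists_norming x hx hε
  obtain ⟨A, hA⟩ := mem_tailSub x ε hε
  set F := clo (z.supp ∪ A) with hFdef
  have hF : IsInit F := clo_isInit _
  have hsub : z.supp ∪ A ⊆ F := subset_clo _
  have hzF : ∀ l, l ∉ F → z.fn l = 0 := by
    intro l hl
    by_contra h
    exact hl (hsub (Finset.mem_union_left _ ((Z.mem_supp z l).2 h)))
  have hxF : ∀ w : Z, (∀ l ∈ F, w.fn l = 0) → ‖w‖ ≤ 1 → |x w| ≤ ε := by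
    intro w hw hw1
    refine (hA w (fun l hl => hw l (hsub (Finset.mem_union_right _ hl)))).trans ?_
    nlinarith
  refine ⟨ann F, ann_mem_Cof F, ?_⟩
  intro y hyF hy
  obtain ⟨w0, hw01, hw02⟩ := exists_norming y hy hε
  set w := rest {l | l ∉ F} w0 with hwdef
  have hwfn : ∀ l, w.fn l = if l ∉ F then w0.fn l else 0 := by
    intro l
    rw [hwdef, rest_fn]
    rfl
  have hwF : ∀ l ∈ F, w.fn l = 0 := by
    intro l hl
    rw [hwfn, if_neg (by simpa using hl)]
  have hw1 : ‖w‖ ≤ 1 := (norm_rest_compl_le hF w0).trans hw01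
  have hyw : y w = y w0 := by
    have h1 : y (w0 - w) = 0 := by
      apply hyF
      intro l hl
      have : (w0 - w).fn l = w0.fn l - w.fn l := rfl
      rw [this, hwfn, if_pos hl, sub_self]
    rw [map_sub] at h1
    linarith
  have hyz : y z = 0 := hyF z hzF
  set lam : ℝ := t / 6 with hlam
  have hlam0 : 0 ≤ lam := by positivity
  obtain ⟨w1, w2, hw12, h1F, h2F, h1n, h2n, h1e, h2e⟩ := key hF hzF hwF hz1 hw1 hlam0
  have hD : 1 + 3 * lam ^ 2 = 1 + t ^ 2 / 12 := by rw [hlam]; ring
  rw [hD] at h1e h2e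
  set D := √(1 + t ^ 2 / 12) with hDdef
  have hD1 : 1 ≤ D := by
    rw [hDdef, Real.one_le_sqrt]
    have : 0 ≤ t ^ 2 / 12 := by positivity
    linarith
  have hDsq : D ^ 2 = 1 + t ^ 2 / 12 := Real.sq_sqrt (by positivity)
  have hcase : (1 - ε) / 2 ≤ y w1 ∨ (1 - ε) / 2 ≤ y w2 := by
    by_contra hcon
    push Not at hcon
    have : y w = y w1 + y w2 := by rw [hw12, map_add]
    linarith [hcon.1, hcon.2]
  have hfin : ∀ (N : ℝ), (1 + t ^ 2 / 12 - ε * (1 + t / 6 + t ^ 2 / 12)) ≤ N * D → 0 ≤ N →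
      D - ε * (1 + t / 6 + t ^ 2 / 12) ≤ N := by
    intro N hN hN0
    have h3 : 0 ≤ ε * (1 + t / 6 + t ^ 2 / 12) := by positivity
    by_contra hcon
    push Not at hcon
    have h4 : N * D < (D - ε * (1 + t / 6 + t ^ 2 / 12)) * D := by
      apply mul_lt_mul_of_pos_right hcon
      linarith
    nlinarith
  rcases hcase with hc | hc
  · apply le_max_of_le_left
    apply hfin _ _ (norm_nonneg _)
    have h5 : (x + t • y) (z + lam • w1) ≤ ‖x + t • y‖ * ‖z + lam • w1‖ :=
      (le_abs_self _).trans ((x + t • y).le_opNorm _)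
    have h6 : (x + t • y) (z + lam • w1) = x z + lam * x w1 + t * (y z + lam * y w1) := by
      have : (x + t • y) (z + lam • w1) = x (z + lam • w1) + t * y (z + lam • w1) := rfl
      rw [this, map_add, map_add, map_smul, map_smul, smul_eq_mul, smul_eq_mul]
    have h7 := abs_le.1 (hxF w1 h1F h1n)
    have h8 : ‖x + t • y‖ * ‖z + lam • w1‖ ≤ ‖x + t • y‖ * D := by gcongr
    rw [h6, hyz] at h5
    have h9 : lam * (-ε) ≤ lam * x w1 := mul_le_mul_of_nonneg_left h7.1 hlam0
    have h12 : lam * ε = t / 6 * ε := by rw [hlam]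
    have h10 : t * (lam * ((1 - ε) / 2)) ≤ t * (lam * y w1) := by gcongr
    have h11 : t * (lam * ((1 - ε) / 2)) = t ^ 2 / 12 - ε * (t ^ 2 / 12) := by rw [hlam]; ring
    linarith
  · apply le_max_of_le_right
    apply hfin _ _ (norm_nonneg _)
    have h5 : (x - t • y) (z - lam • w2) ≤ ‖x - t • y‖ * ‖z - lam • w2‖ :=
      (le_abs_self _).trans ((x - t • y).le_opNorm _)
    have h6 : (x - t • y) (z - lam • w2) = x z - lam * x w2 - t * (y z - lam * y w2) := by
      have : (x - t • y) (z - lam • w2) = x (z - lam • w2) - t * y (z - lam • w2) := rfl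
      rw [this, map_sub, map_sub, map_smul, map_smul, smul_eq_mul, smul_eq_mul]
    have h7 := abs_le.1 (hxF w2 h2F h2n)
    have h8 : ‖x - t • y‖ * ‖z - lam • w2‖ ≤ ‖x - t • y‖ * D := by gcongr
    rw [h6, hyz] at h5
    have h9 : lam * x w2 ≤ lam * ε := mul_le_mul_of_nonneg_left h7.2 hlam0
    have h12 : lam * ε = t / 6 * ε := by rw [hlam]
    have h10 : t * (lam * ((1 - ε) / 2)) ≤ t * (lam * y w2) := by gcongr
    have h11 : t * (lam * ((1 - ε) / 2)) = t ^ 2 / 12 - ε * (t ^ 2 / 12) := by rw [hlam]; ring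
    linarith

/-- The norm of `X` has midpoint modulus at least `√(1 + t²/12) - 1`. -/
theorem amucModulus_ge {t : ℝ} (ht : 0 < t) :
    ((√(1 + t ^ 2 / 12) - 1 : ℝ) : EReal) ≤ amucModulus (normSeminorm ℝ X) t := by
  rw [amucModulus]
  apply le_iInf
  rintro ⟨x, hx⟩
  rw [coe_normSeminorm] at hx
  apply le_of_forall_lt
  intro c hc
  induction c with
  | bot =>
    refine lt_of_lt_of_le ?_ (le_iSup _ ⟨ann ∅, ann_mem_Cof ∅⟩)
    obtain ⟨F, hF, hF'⟩ := amuc_estimate x hx ht one_pos
    refine lt_of_lt_of_le (EReal.bot_lt_coe (-1)) ?_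
    apply le_iInf
    rintro ⟨y, hy⟩
    rw [EReal.coe_le_coe_iff]
    simp only [coe_normSeminorm]
    have : 0 ≤ max ‖x + t • y‖ ‖x - t • y‖ := le_max_of_le_left (norm_nonneg _)
    linarith
  | top => exact absurd hc (by simp)
  | coe c =>
    rw [EReal.coe_lt_coe_iff] at hc
    set K := 1 + t / 6 + t ^ 2 / 12 with hK
    have hKpos : 0 < K := by positivity
    set ε := (√(1 + t ^ 2 / 12) - 1 - c) / 2 / K with hε
    have hgap : 0 < √(1 + t ^ 2 / 12) - 1 - c := by linarith
    have hεpos : 0 < ε := by positivity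
    have hεK : ε * K = (√(1 + t ^ 2 / 12) - 1 - c) / 2 := by
      rw [hε]; field_simp
    obtain ⟨F, hF, hF'⟩ := amuc_estimate x hx ht hεpos
    refine lt_of_lt_of_le ?_ (le_iSup _ ⟨F, hF⟩)
    refine lt_of_lt_of_le (b := ((c + (√(1 + t ^ 2 / 12) - 1 - c) / 2 : ℝ) : EReal)) ?_ ?_
    · rw [EReal.coe_lt_coe_iff]; linarith
    · apply le_iInf
      rintro ⟨y, hy, hy1⟩
      rw [coe_normSeminorm] at hy1
      rw [EReal.coe_le_coe_iff]
      simp only [coe_normSeminorm]
      have := hF' y hy hy1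
      rw [← hK, hεK] at this
      linarith

theorem isAMUC_norm : IsAMUC (normSeminorm ℝ X) := by
  intro t ht
  refine lt_of_lt_of_le ?_ (amucModulus_ge ht)
  rw [EReal.coe_pos]
  have : 1 < √(1 + t ^ 2 / 12) := by
    rw [Real.lt_sqrt (by norm_num)]
    have : 0 < t ^ 2 / 12 := by positivity
    linarith
  linarith

theorem amucRenormable_X : AMUCRenormable X :=
  ⟨normSeminorm ℝ X, ⟨1, one_pos, 1, one_pos, fun x => by simp⟩, isAMUC_norm⟩

end Vale.Agent.P069
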