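import Mathlib

open Set

namespace Vale.Agent.P069

/-- precomposition with `R` on the dual -/
noncomputable def pre {E : Type*} [NormedAddCommGroup E] [NormedSpace ℝ E] (R : E →L[ℝ] E) :
    StrongDual ℝ E →L[ℝ] StrongDual ℝ E :=
  (ContinuousLinearMap.compL ℝ E E ℝ).flip R

lemma pre_apply {E : Type*} [NormedAddCommGroup E] [NormedSpace ℝ E] (R : E →L[ℝ] E)
    (φ : StrongDual ℝ E) : pre R φ = φ.comp R := rfl

/-- An `ℓ₂`-type decomposition. -/
structure Decomp {E : Type*} [NormedAddCommGroup E] [NormedSpace ℝ E] {ι : Type*}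
    (R : ι → E →L[ℝ] E) (S : E →L[ℝ] E) (C₁ C₂ : ℝ) : Prop where
  c1 : 0 ≤ C₁
  c2 : 0 ≤ C₂
  upper : ∀ (A : Finset ι) (z : ι → E),
    ‖∑ i ∈ A, R i (z i)‖ ^ 2 ≤ C₁ * ∑ i ∈ A, ‖R i (z i)‖ ^ 2
  lower : ∀ (A : Finset ι) (z : E), ∑ i ∈ A, ‖R i z‖ ^ 2 ≤ C₂ * ‖z‖ ^ 2
  sum : ∀ z, HasSum (fun i => R i z) (S z)
  idem : ∀ i z, R i (R i z) = R i z
  contr : ∀ i z, ‖R i z‖ ≤ ‖z‖

variable {E : Type*} [NormedAddCommGroup E] [NormedSpace ℝ E] {ι : Type*}
  {R : ι → E →L[ℝ] E} {S : E →L[ℝ] E} {C₁ C₂ : ℝ}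

lemma Decomp.dual_upper (h : Decomp R S C₁ C₂) (A : Finset ι) (φ : ι → StrongDual ℝ E) :
    ‖∑ i ∈ A, pre (R i) (φ i)‖ ^ 2 ≤ C₂ * ∑ i ∈ A, ‖pre (R i) (φ i)‖ ^ 2 := by
  have h0 : 0 ≤ ∑ i ∈ A, ‖pre (R i) (φ i)‖ ^ 2 := Finset.sum_nonneg fun _ _ => by positivity
  have h1 : 0 ≤ C₂ * ∑ i ∈ A, ‖pre (R i) (φ i)‖ ^ 2 := mul_nonneg h.c2 h0
  have h2 : ‖∑ i ∈ A, pre (R i) (φ i)‖ ≤ √(C₂ * ∑ i ∈ A, ‖pre (R i) (φ i)‖ ^ 2) := by
    apply ContinuousLinearMap.opNorm_le_bound _ (Real.sqrt_nonneg _)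
    intro z
    rw [ContinuousLinearMap.sum_apply]
    calc ‖∑ i ∈ A, (pre (R i) (φ i)) z‖ ≤ ∑ i ∈ A, ‖(pre (R i) (φ i)) z‖ := norm_sum_le _ _
      _ ≤ ∑ i ∈ A, ‖pre (R i) (φ i)‖ * ‖R i z‖ := by
          apply Finset.sum_le_sum
          intro i _
          have e : (pre (R i) (φ i)) z = (pre (R i) (φ i)) (R i z) := by
            rw [pre_apply, ContinuousLinearMap.comp_apply, ContinuousLinearMap.comp_apply, h.idem]
          rw [e]
          exact ContinuousLinearMap.le_opNorm _ _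
      _ ≤ √(∑ i ∈ A, ‖pre (R i) (φ i)‖ ^ 2) * √(∑ i ∈ A, ‖R i z‖ ^ 2) :=
          Real.sum_mul_le_sqrt_mul_sqrt _ _ _
      _ ≤ √(∑ i ∈ A, ‖pre (R i) (φ i)‖ ^ 2) * √(C₂ * ‖z‖ ^ 2) := by
          gcongr
          exact h.lower A z
      _ = √(C₂ * ∑ i ∈ A, ‖pre (R i) (φ i)‖ ^ 2) * ‖z‖ := by
          rw [Real.sqrt_mul h.c2, Real.sqrt_mul h.c2, Real.sqrt_sq (norm_nonneg z)]
          ring
  calc ‖∑ i ∈ A, pre (R i) (φ i)‖ ^ 2 ≤ (√(C₂ * ∑ i ∈ A, ‖pre (R i) (φ i)‖ ^ 2)) ^ 2 := by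
        gcongr
    _ = _ := Real.sq_sqrt h1

lemma Decomp.dual_lower (h : Decomp R S C₁ C₂) (A : Finset ι) (φ : StrongDual ℝ E) :
    ∑ i ∈ A, ‖pre (R i) φ‖ ^ 2 ≤ C₁ * ‖φ‖ ^ 2 := by
  set a : ι → ℝ := fun i => ‖pre (R i) φ‖ with ha
  set s : ℝ := ∑ i ∈ A, a i ^ 2 with hs
  have ha0 : ∀ i, 0 ≤ a i := fun i => norm_nonneg _
  have hs0 : 0 ≤ s := Finset.sum_nonneg fun _ _ => by positivity
  have key : ∀ ε > 0, s - ε * ∑ i ∈ A, a i ≤ ‖φ‖ * √(C₁ * s) := by
    intro ε hε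
    have hex : ∀ i, ∃ z : E, ‖z‖ ≤ 1 ∧ a i - ε ≤ (pre (R i) φ) z := by
      intro i
      by_cases hi : a i - ε < 0
      · exact ⟨0, by simp, by rw [map_zero]; exact hi.le⟩
      · have hlt : a i - ε < ‖pre (R i) φ‖ := by
          simp only [ha]; linarith
        obtain ⟨z, hz1, hz2⟩ := ContinuousLinearMap.exists_lt_apply_of_lt_opNorm _ hlt
        rcases le_total 0 ((pre (R i) φ) z) with h0 | h0
        · refine ⟨z, hz1.le, ?_⟩
          rw [Real.norm_of_nonneg h0] at hz2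
          exact hz2.le
        · refine ⟨-z, by rw [norm_neg]; exact hz1.le, ?_⟩
          rw [Real.norm_of_nonpos h0] at hz2
          rw [map_neg]
          exact hz2.le
    choose z hz1 hz2 using hex
    set u : E := ∑ i ∈ A, R i (a i • z i) with hu
    have hu1 : ‖u‖ ^ 2 ≤ C₁ * s := by
      refine (h.upper A (fun i => a i • z i)).trans ?_
      apply mul_le_mul_of_nonneg_left _ h.c1
      apply Finset.sum_le_sum
      intro i _
      have h1 : ‖R i (a i • z i)‖ ≤ a i := by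
        refine (h.contr i _).trans ?_
        rw [norm_smul, Real.norm_of_nonneg (ha0 i)]
        exact mul_le_of_le_one_right (ha0 i) (hz1 i)
      gcongr
    have hu2 : ‖u‖ ≤ √(C₁ * s) := Real.le_sqrt_of_sq_le hu1
    calc s - ε * ∑ i ∈ A, a i = ∑ i ∈ A, a i * (a i - ε) := by
          rw [hs, Finset.mul_sum, ← Finset.sum_sub_distrib]
          apply Finset.sum_congr rfl
          intro i _
          ring
      _ ≤ ∑ i ∈ A, a i * (pre (R i) φ) (z i) := by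
          apply Finset.sum_le_sum
          intro i _
          exact mul_le_mul_of_nonneg_left (hz2 i) (ha0 i)
      _ = φ u := by
          rw [hu, map_sum]
          apply Finset.sum_congr rfl
          intro i _
          rw [map_smul, map_smul, pre_apply, ContinuousLinearMap.comp_apply, smul_eq_mul]
      _ ≤ ‖φ‖ * ‖u‖ := (le_abs_self _).trans (φ.le_opNorm u)
      _ ≤ ‖φ‖ * √(C₁ * s) := by gcongr
  have h2 : s ≤ ‖φ‖ * √(C₁ * s) := by
    apply le_of_forall_pos_sub_le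
    intro δ hδ
    have hpos : 0 < (∑ i ∈ A, a i) + 1 := by
      have : 0 ≤ ∑ i ∈ A, a i := Finset.sum_nonneg fun i _ => ha0 i
      linarith
    have h3 := key (δ / ((∑ i ∈ A, a i) + 1)) (div_pos hδ hpos)
    have h4 : δ / ((∑ i ∈ A, a i) + 1) * ∑ i ∈ A, a i ≤ δ := by
      rw [div_mul_eq_mul_div, div_le_iff₀ hpos]
      nlinarith
    linarith
  have h5 : s ^ 2 ≤ (‖φ‖ ^ 2 * C₁) * s := by
    calc s ^ 2 ≤ (‖φ‖ * √(C₁ * s)) ^ 2 := by gcongr
      _ = (‖φ‖ ^ 2 * C₁) * s := by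
        rw [mul_pow, Real.sq_sqrt (mul_nonneg h.c1 hs0)]
        ring
  rcases eq_or_lt_of_le hs0 with h6 | h6
  · rw [← h6]
    exact mul_nonneg h.c1 (by positivity)
  · have h7 : s * s ≤ (C₁ * ‖φ‖ ^ 2) * s := by nlinarith
    exact le_of_mul_le_mul_right h7 h6

lemma Decomp.dual_sum (h : Decomp R S C₁ C₂) (φ : StrongDual ℝ E) :
    HasSum (fun i => pre (R i) φ) (pre S φ) := by
  classical
  have hsum : Summable (fun i => ‖pre (R i) φ‖ ^ 2) := by
    apply summable_of_sum_le (c := C₁ * ‖φ‖ ^ 2)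
    · intro i; positivity
    · intro A
      exact h.dual_lower A φ
  rw [HasSum, SummationFilter.unconditional_filter, Metric.tendsto_atTop]
  intro ε hε
  set η : ℝ := (ε / 2) ^ 2 / (C₂ + 1) with hη
  have hC : 0 < C₂ + 1 := by linarith [h.c2]
  have hη0 : 0 < η := by positivity
  rw [summable_iff_vanishing_norm] at hsum
  obtain ⟨A0, hA0⟩ := hsum η hη0
  refine ⟨A0, fun A hA => ?_⟩
  rw [dist_eq_norm]
  refine lt_of_le_of_lt ?_ (half_lt_self hε)
  apply ContinuousLinearMap.opNorm_le_bound _ (by positivity)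
  intro z
  rw [ContinuousLinearMap.sub_apply, ContinuousLinearMap.sum_apply, pre_apply,
    ContinuousLinearMap.comp_apply]
  have hlim : Filter.Tendsto (fun B : Finset ι => (∑ i ∈ A, (pre (R i) φ) z) -
      ∑ i ∈ B, (pre (R i) φ) z) Filter.atTop
      (nhds ((∑ i ∈ A, (pre (R i) φ) z) - φ (S z))) := by
    apply Filter.Tendsto.const_sub
    have h1 : HasSum (fun i => φ (R i z)) (φ (S z)) := (h.sum z).mapL φ
    rw [HasSum, SummationFilter.unconditional_filter] at h1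
    exact h1
  have hn := hlim.norm
  apply le_of_tendsto hn
  filter_upwards [Filter.eventually_ge_atTop A] with B hB
  have hAB : A ⊆ B := hB
  have e : (∑ i ∈ A, (pre (R i) φ) z) - ∑ i ∈ B, (pre (R i) φ) z =
      - ∑ i ∈ B \ A, (pre (R i) φ) z := by
    rw [← Finset.sum_sdiff hAB]; ring
  rw [e, norm_neg]
  have hdisj : Disjoint (B \ A) A0 := by
    apply Finset.disjoint_of_subset_right hA
    exact Finset.sdiff_disjoint
  have h2 := hA0 (B \ A) hdisj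
  have h3 : ∑ i ∈ B \ A, ‖pre (R i) φ‖ ^ 2 ≤ η := by
    refine le_trans (le_abs_self _) ?_
    exact h2.le
  calc ‖∑ i ∈ B \ A, (pre (R i) φ) z‖ ≤ ∑ i ∈ B \ A, ‖(pre (R i) φ) z‖ := norm_sum_le _ _
    _ ≤ ∑ i ∈ B \ A, ‖pre (R i) φ‖ * ‖R i z‖ := by
        apply Finset.sum_le_sum
        intro i _
        have e : (pre (R i) φ) z = (pre (R i) φ) (R i z) := by
          rw [pre_apply, ContinuousLinearMap.comp_apply, ContinuousLinearMap.comp_apply, h.idem]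
        rw [e]
        exact ContinuousLinearMap.le_opNorm _ _
    _ ≤ √(∑ i ∈ B \ A, ‖pre (R i) φ‖ ^ 2) * √(∑ i ∈ B \ A, ‖R i z‖ ^ 2) :=
        Real.sum_mul_le_sqrt_mul_sqrt _ _ _
    _ ≤ √η * √(C₂ * ‖z‖ ^ 2) := by
        gcongr
        exact h.lower _ z
    _ = √(η * C₂) * ‖z‖ := by
        rw [Real.sqrt_mul h.c2, Real.sqrt_mul hη0.le, Real.sqrt_sq (norm_nonneg z)]
        ring
    _ ≤ ε / 2 * ‖z‖ := by
        gcongr
        rw [Real.sqrt_le_left (by positivity), hη, div_mul_eq_mul_div, div_le_iff₀ hC]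
        nlinarith [sq_nonneg (ε / 2)]

lemma Decomp.dual (h : Decomp R S C₁ C₂) :
    Decomp (fun i => pre (R i)) (pre S) C₂ C₁ where
  c1 := h.c2
  c2 := h.c1
  upper := h.dual_upper
  lower := h.dual_lower
  sum := h.dual_sum
  idem i φ := by
    ext z
    simp only [pre_apply, ContinuousLinearMap.comp_apply, h.idem]
  contr i φ := by
    rw [pre_apply]
    apply ContinuousLinearMap.opNorm_le_bound _ (norm_nonneg _)
    intro z
    rw [ContinuousLinearMap.comp_apply]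
    refine (φ.le_opNorm _).trans ?_
    gcongr
    exact h.contr i z

end Vale.Agent.P069
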