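import Vale.Agent.P069.Tree

open Set

namespace Vale.Agent.P069

lemma self_mem_seg {p b : List ℕ} (h : p <:+ b) (hne : p ≠ b) : b ∈ seg p b := by
  rw [mem_seg]
  refine ⟨List.suffix_rfl, fun hb => hne ?_⟩
  exact h.eq_of_length (le_antisymm h.length_le hb.length_le)

lemma energy_le {ι : Type*} (s : Finset ι) (p b : ι → List ℕ) (h : IsFam s p b) (z : Z) :
    ∑ i ∈ s, (V z.fn (b i) - V z.fn (p i)) ^ 2 ≤ ‖z‖ ^ 2 := by
  classical
  set s' := s.filter (fun i => p i ≠ b i) with hs'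
  set e : ι → List ℕ × List ℕ := fun i => (p i, b i) with he
  have hinj : Set.InjOn e s' := by
    intro i hi j hj hij
    by_contra hne
    rw [hs', Finset.coe_filter] at hi hj
    have hd := h.disj hi.1 hj.1 hne
    simp only [he, Prod.mk.injEq] at hij
    simp only [Function.onFun, ← hij.1, ← hij.2] at hd
    rw [disjoint_self, Finset.bot_eq_empty] at hd
    have := self_mem_seg (h.suf i hi.1) hi.2
    rw [hd] at this
    simp at this
  have hfam : IsFam (s'.image e) Prod.fst Prod.snd := by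
    constructor
    · intro q hq
      rw [Finset.mem_image] at hq
      obtain ⟨i, hi, rfl⟩ := hq
      exact h.suf i (Finset.mem_filter.1 hi).1
    · intro q hq r hr hqr
      rw [Finset.coe_image] at hq hr
      obtain ⟨i, hi, rfl⟩ := hq
      obtain ⟨j, hj, rfl⟩ := hr
      have hne : i ≠ j := fun hij => hqr (by rw [hij])
      rw [hs', Finset.coe_filter] at hi hj
      exact h.disj hi.1 hj.1 hne
  have h1 : ∑ i ∈ s, (V z.fn (b i) - V z.fn (p i)) ^ 2 =
      ∑ i ∈ s', (V z.fn (b i) - V z.fn (p i)) ^ 2 := by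
    rw [hs', Finset.sum_filter]
    apply Finset.sum_congr rfl
    intro i _
    split_ifs with hi
    · rfl
    · rw [not_not] at hi
      rw [hi]; simp
  rw [h1]
  have h2 : ∑ i ∈ s', (V z.fn (b i) - V z.fn (p i)) ^ 2 =
      ∑ q ∈ s'.image e, (V z.fn q.2 - V z.fn q.1) ^ 2 := by
    rw [Finset.sum_image hinj]
  rw [h2, ← norm_meas_sq ⟨s'.image e, hfam⟩ z]
  gcongr
  exact norm_meas_le_norm _ _

lemma norm_le_of_energy {z : Z} {C : ℝ} (hC : 0 ≤ C)
    (h : ∀ s : Finset (List ℕ × List ℕ), IsFam s Prod.fst Prod.snd →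
      ∑ q ∈ s, (V z.fn q.2 - V z.fn q.1) ^ 2 ≤ C ^ 2) : ‖z‖ ≤ C := by
  apply norm_le_of_meas hC
  intro f
  apply le_of_sq_le_sq _ hC
  rw [norm_meas_sq]
  exact h f.1 f.2

/-- Refinement of families. -/
lemma IsFam.refine {ι κ : Type*} {s : Finset ι} {p b : ι → List ℕ} (h : IsFam s p b)
    (t : Finset κ) (p' b' : κ → List ℕ) (g : κ → ι) (hg : ∀ k ∈ t, g k ∈ s)
    (hsuf : ∀ k ∈ t, p' k <:+ b' k)
    (hsub : ∀ k ∈ t, seg (p' k) (b' k) ⊆ seg (p (g k)) (b (g k)))
    (hd : ∀ k ∈ t, ∀ k' ∈ t, k ≠ k' → g k = g k' →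
      Disjoint (seg (p' k) (b' k)) (seg (p' k') (b' k'))) : IsFam t p' b' := by
  refine ⟨hsuf, ?_⟩
  intro k hk k' hk' hne
  by_cases hgg : g k = g k'
  · exact hd k hk k' hk' hne hgg
  · exact (h.disj (hg k hk) (hg k' hk') hgg).mono (hsub k hk) (hsub k' hk')

lemma IsFam.subset {ι : Type*} {s s' : Finset ι} {p b : ι → List ℕ} (h : IsFam s p b)
    (hss : s' ⊆ s) : IsFam s' p b :=
  ⟨fun i hi => h.suf i (hss hi), h.disj.subset (by exact_mod_cast hss)⟩

lemma seg_subset {p b p' b' : List ℕ} (h1 : p <:+ p') (h2 : b' <:+ b) :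
    seg p' b' ⊆ seg p b := by
  intro s hs
  rw [mem_seg] at *
  exact ⟨hs.1.trans h2, fun h => hs.2 (h.trans h1)⟩

/-- norm estimates transfer along a pointwise comparison of variations -/
lemma norm_le_of_var {z w : Z}
    (h : ∀ p b : List ℕ, p <:+ b → |V z.fn b - V z.fn p| ≤ |V w.fn b - V w.fn p|) :
    ‖z‖ ≤ ‖w‖ := by
  apply norm_le_of_energy (norm_nonneg _)
  intro s hs
  refine le_trans (Finset.sum_le_sum fun q hq => ?_) (energy_le s _ _ hs w)
  exact sq_le_sq.2 (h _ _ (hs.suf q hq))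

end Vale.Agent.P069
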