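import Vale.Agent.P069.Energy

open Set

namespace Vale.Agent.P069

/-- A finite set of nodes closed under passing to suffixes. -/
structure IsInit (F : Finset (List ℕ)) : Prop where
  nil_mem : [] ∈ F
  closed : ∀ l ∈ F, ∀ s, s <:+ l → s ∈ F

/-- longest suffix lying in `F` -/
def vF (F : Finset (List ℕ)) : List ℕ → List ℕ
  | [] => []
  | a :: l => if a :: l ∈ F then a :: l else vF F l

lemma vF_suffix (F : Finset (List ℕ)) (l : List ℕ) : vF F l <:+ l := by
  induction l with
  | nil => simp [vF]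
  | cons a l ih =>
    rw [vF]
    split_ifs
    · exact List.suffix_rfl
    · exact ih.trans (List.suffix_cons a l)

lemma vF_mem {F : Finset (List ℕ)} (hF : IsInit F) (l : List ℕ) : vF F l ∈ F := by
  induction l with
  | nil => simpa [vF] using hF.nil_mem
  | cons a l ih =>
    rw [vF]
    split_ifs with h
    · exact h
    · exact ih

lemma vF_of_mem {F : Finset (List ℕ)} {l : List ℕ} (h : l ∈ F) : vF F l = l := by
  cases l with
  | nil => simp [vF]
  | cons a l => rw [vF, if_pos h]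

lemma vF_of_suffix_notMem {F : Finset (List ℕ)} (hF : IsInit F) {s b : List ℕ}
    (hs : s <:+ b) (h : s ∉ F) : vF F b = vF F s := by
  induction b with
  | nil =>
    rw [List.suffix_nil] at hs
    rw [hs]
  | cons a l ih =>
    rw [List.suffix_cons_iff] at hs
    rcases hs with rfl | hs
    · rfl
    · rw [vF, if_neg, ih hs]
      intro hm
      exact h (hF.closed _ hm _ (hs.trans (List.suffix_cons a l)))

lemma suffix_vF {F : Finset (List ℕ)} {p b : List ℕ}
    (hs : p <:+ b) (h : p ∈ F) : p <:+ vF F b := by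
  induction b with
  | nil =>
    simpa [vF] using hs
  | cons a l ih =>
    rw [vF]
    split_ifs with hm
    · exact hs
    · rw [List.suffix_cons_iff] at hs
      rcases hs with rfl | hs
      · exact absurd h hm
      · exact ih hs

lemma vF_eq_of_mem_seg {F : Finset (List ℕ)} (hF : IsInit F) {s b : List ℕ}
    (hs : s ∈ seg (vF F b) b) : vF F s = vF F b := by
  rw [mem_seg] at hs
  have h : s ∉ F := fun h => hs.2 (suffix_vF hs.1 h)
  exact (vF_of_suffix_notMem hF hs.1 h).symm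

lemma V_eq_vF {F : Finset (List ℕ)} {z : Z} (hz : ∀ l, l ∉ F → z.fn l = 0)
    (l : List ℕ) : V z.fn l = V z.fn (vF F l) := by
  induction l with
  | nil => rfl
  | cons a l ih =>
    rw [vF]
    split_ifs with h
    · rfl
    · rw [V_cons, ih, hz _ h, add_zero]

lemma V_eq_zero {F : Finset (List ℕ)} (hF : IsInit F) {w : Z} (hw : ∀ l ∈ F, w.fn l = 0)
    {l : List ℕ} (hl : l ∈ F) : V w.fn l = 0 := by
  rw [V]
  apply Finset.sum_eq_zero
  intro t ht
  rw [mem_tl] at ht
  exact hw t (hF.closed l hl t ht)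

lemma exists_sign (g : List ℕ → ℝ) (θ : ℝ) (v : List ℕ) :
    ∃ σ : ℝ, (σ = 1 ∨ σ = -1) ∧ ∀ p, p <:+ v → σ * (g v - g p) < -θ →
      ∃ m, p <:+ m ∧ m <:+ v ∧ θ < σ * (g v - g m) := by
  classical
  by_cases h : ∃ m, m <:+ v ∧ θ < |g v - g m|
  · have hne : ((tl v).filter (fun m => θ < |g v - g m|)).Nonempty := by
      obtain ⟨m, hm⟩ := h
      exact ⟨m, by simpa [mem_tl] using hm⟩
    obtain ⟨m, hm, hmax⟩ := Finset.exists_max_image _ (fun m => m.length) hne
    simp only [Finset.mem_filter, mem_tl] at hm hmax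
    have key : ∀ p, p <:+ v → θ < |g v - g p| → p <:+ m := by
      intro p hp hθ
      exact List.suffix_of_suffix_length_le hp hm.1 (hmax p ⟨hp, hθ⟩)
    rcases le_total 0 (g v - g m) with h0 | h0
    · refine ⟨1, Or.inl rfl, fun p hp hlt => ⟨m, key p hp ?_, hm.1, ?_⟩⟩
      · rw [lt_abs]; right; linarith
      · rw [one_mul, ← abs_of_nonneg h0]; exact hm.2
    · refine ⟨-1, Or.inr rfl, fun p hp hlt => ⟨m, key p hp ?_, hm.1, ?_⟩⟩
      · rw [lt_abs]; left; linarith
      · have := hm.2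
        rw [abs_of_nonpos h0] at this
        linarith
  · push Not at h
    refine ⟨1, Or.inl rfl, fun p hp hlt => ?_⟩
    have := h p hp
    rw [abs_le] at this
    linarith

lemma finite_range_V (w : Z) : (Set.range (fun l => V w.fn l)).Finite := by
  classical
  apply Set.Finite.subset (Finset.finite_toSet
    ((w.supp.powerset).image (fun A => ∑ t ∈ A, w.fn t)))
  rintro _ ⟨l, rfl⟩
  simp only [Finset.coe_image, Set.mem_image, Finset.mem_coe, Finset.mem_powerset]
  refine ⟨(tl l).filter (fun t => t ∈ w.supp), ?_, ?_⟩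
  · intro t ht
    exact (Finset.mem_filter.1 ht).2
  · rw [Finset.sum_filter, V]
    apply Finset.sum_congr rfl
    intro t _
    split_ifs with h
    · rfl
    · rw [Z.mem_supp, not_not] at h
      exact h.symm

lemma exists_top (F : Finset (List ℕ)) (w : Z) (v : List ℕ) (hv : v ∈ F) :
    ∃ T, vF F T = v ∧ ∀ l, vF F l = v → |V w.fn l| ≤ |V w.fn T| := by
  have hfin : ((fun l => |V w.fn l|) '' {l | vF F l = v}).Finite := by
    apply Set.Finite.subset ((finite_range_V w).image (fun x => |x|))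
    rintro _ ⟨l, _, rfl⟩
    exact ⟨V w.fn l, ⟨l, rfl⟩, rfl⟩
  have hne : ((fun l => |V w.fn l|) '' {l | vF F l = v}).Nonempty :=
    ⟨_, ⟨v, vF_of_mem hv, rfl⟩⟩
  obtain ⟨x, ⟨T, hT, rfl⟩, hmax⟩ := hfin.exists_maximal hne
  refine ⟨T, hT, fun l hl => ?_⟩
  have h1 : |V w.fn l| ∈ ((fun l => |V w.fn l|) '' {l | vF F l = v}) := ⟨l, hl, rfl⟩
  rcases le_total (|V w.fn l|) (|V w.fn T|) with h | h
  · exact h
  · exact hmax h1 h

lemma real_case1 {σ α β lam B : ℝ} (hσ : σ = 1 ∨ σ = -1) (hβ : σ * β ≤ 0) (hB : |β| ≤ B)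
    (hl : 0 ≤ lam) (h : -(lam * B) ≤ σ * α) :
    (α + lam * β) ^ 2 ≤ α ^ 2 + lam ^ 2 * β ^ 2 + 2 * (lam ^ 2 * B ^ 2) := by
  have hB0 : 0 ≤ B := (abs_nonneg _).trans hB
  rw [abs_le] at hB
  have h2 : α * β ≤ lam * B ^ 2 := by
    rcases hσ with rfl | rfl
    · have : 0 ≤ -β := by linarith
      nlinarith [mul_nonneg hl hB0, mul_nonneg (mul_nonneg hl hB0) (by linarith : 0 ≤ B + β),
        mul_nonneg this (by linarith : 0 ≤ lam * B + α)]
    · have : 0 ≤ β := by linarith
      nlinarith [mul_nonneg hl hB0, mul_nonneg (mul_nonneg hl hB0) (by linarith : 0 ≤ B - β),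
        mul_nonneg this (by linarith : 0 ≤ lam * B - α)]
  nlinarith [mul_le_mul_of_nonneg_left h2 hl]

lemma real_case2 {σ α β lam B γ : ℝ} (hσ : σ = 1 ∨ σ = -1) (hβ : σ * β ≤ 0) (hB : |β| ≤ B)
    (hl : 0 ≤ lam) (h : σ * α < -(lam * B)) (hγ : lam * B < σ * γ) :
    (α + lam * β) ^ 2 ≤ (α - γ) ^ 2 + γ ^ 2 + lam ^ 2 * β ^ 2 := by
  have hB0 : 0 ≤ B := (abs_nonneg _).trans hB
  rw [abs_le] at hB
  have hlB : 0 ≤ lam * B := mul_nonneg hl hB0
  have h2 : lam * (α * β) ≤ - (α * γ) := by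
    rcases hσ with rfl | rfl
    · have h3 : 0 ≤ -α := by linarith
      nlinarith [mul_nonneg h3 (by linarith : 0 ≤ γ - lam * B),
        mul_nonneg h3 (mul_nonneg hl (by linarith : 0 ≤ B + β))]
    · have h3 : 0 ≤ α := by linarith
      nlinarith [mul_nonneg h3 (by linarith : 0 ≤ -γ - lam * B),
        mul_nonneg h3 (mul_nonneg hl (by linarith : 0 ≤ B - β))]
  nlinarith [sq_nonneg γ]

end Vale.Agent.P069
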