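import Vale.Agent.P069.NotAUC
import Vale.Agent.P069.AMUC

/-! P069: quantifier forms of the two moduli estimates. -/

namespace Vale.Agent.P069

theorem not_lt_modulus (N : Seminorm ℝ X) {c C : ℝ} (hc : 0 < c) (hC : 0 < C)
    (hN : ∀ x : X, c * ‖x‖ ≤ N x ∧ N x ≤ C * ‖x‖) {δ : ℝ} (hδ1 : 0 < δ)
    (hδ2 : (δ : EReal) < aucModulus N (c / (2 * C))) : False := by
  have key : ∀ n : ℕ, 1 ≤ n → ∀ j : ℕ, j + 1 ≤ n → ∃ l : List ℕ, good l ∧ comp l = n ∧
      l.length = j + 1 ∧ c * (1 + δ / 2) ^ j ≤ N (del l) := by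
    intro n hn j
    induction j with
    | zero =>
      intro _
      have hg : good [n] := ⟨by simp, by simpa using hn⟩
      refine ⟨[n], hg, rfl, rfl, ?_⟩
      rw [pow_zero, mul_one]
      refine le_trans ?_ (hN _).1
      nlinarith [one_le_norm_del hg]
    | succ j ih =>
      intro hj
      obtain ⟨l, hg, hcomp, hlen, hl⟩ := ih (by omega)
      have hlt : l.length < comp l := by omega
      obtain ⟨k, hk⟩ := growth N hc hC hN hδ1 hδ2 (del l) (one_le_norm_del hg) (norm_del_le l)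
        (fun k => co (k :: l)) (fun k => one_le_norm_co (good_cons hg hlt)) (weak_null l)
      refine ⟨k :: l, good_cons hg hlt, ?_, by simp [hlen], ?_⟩
      · rw [← comp_suffix (List.suffix_cons k l) hg.1, hcomp]
      · rw [del_cons]
        refine le_trans ?_ hk
        rw [pow_succ]
        nlinarith
  have hbig : Filter.Tendsto (fun j : ℕ => (1 + δ / 2) ^ j) Filter.atTop Filter.atTop :=
    tendsto_pow_atTop_atTop_of_one_lt (by linarith)
  obtain ⟨j, hj⟩ := (hbig.eventually (Filter.eventually_gt_atTop (C / c))).exists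
  obtain ⟨l, _, _, _, hl⟩ := key (j + 1) (by omega) j le_rfl
  have h1 : N (del l) ≤ C := (hN _).2.trans (by nlinarith [norm_del_le l])
  rw [div_lt_iff₀ hc] at hj
  linarith

theorem auc_fails (N : Seminorm ℝ X) {c C : ℝ} (hc : 0 < c) (hC : 0 < C)
    (hN : ∀ x : X, c * ‖x‖ ≤ N x ∧ N x ≤ C * ‖x‖) {t : ℝ} (ht : 0 < t) (htc : t ≤ c / (2 * C))
    {δ : ℝ} (hδ : 0 < δ) :
    ∃ x : X, N x = 1 ∧ ∀ F : Submodule ℝ X, IsClosed (F : Set X) → FiniteDimensional ℝ (X ⧸ F) →
      ∃ y ∈ F, N y = 1 ∧ N (x + t • y) < 1 + δ := by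
  by_contra hcon
  push Not at hcon
  have h1 : (δ : EReal) ≤ aucModulus N (c / (2 * C)) := by
    apply le_iInf
    rintro ⟨x, hx⟩
    obtain ⟨F, hF1, hF2, hF3⟩ := hcon x hx
    refine le_trans ?_ (le_iSup _ ⟨F, hF1, hF2⟩)
    apply le_iInf
    rintro ⟨y, hyF, hy⟩
    rw [EReal.coe_le_coe_iff]
    have h2 := hF3 y hyF hy
    set T := c / (2 * C) with hT
    have hT0 : 0 < T := lt_of_lt_of_le ht htc
    have h3 : x + t • y = (1 - t / T) • x + (t / T) • (x + T • y) := by
      rw [smul_add, smul_smul, ← add_assoc, ← add_smul, div_mul_cancel₀ _ hT0.ne']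
      norm_num
    have ht1 : t / T ≤ 1 := (div_le_one hT0).mpr htc
    have ht2 : 0 < t / T := div_pos ht hT0
    have h4 : N (x + t • y) ≤ (1 - t / T) * 1 + (t / T) * N (x + T • y) := by
      rw [h3]
      refine (map_add_le_add N _ _).trans ?_
      rw [map_smul_eq_mul, map_smul_eq_mul, hx, Real.norm_of_nonneg (by linarith),
        Real.norm_of_nonneg ht2.le]
    have h5 : 1 + δ ≤ (1 - t / T) * 1 + (t / T) * N (x + T • y) := h2.trans h4
    by_contra h6
    push Not at h6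
    nlinarith
  have h2 : ((δ / 2 : ℝ) : EReal) < aucModulus N (c / (2 * C)) :=
    lt_of_lt_of_le (EReal.coe_lt_coe_iff.mpr (by linarith)) h1
  exact not_lt_modulus N hc hC hN (by linarith) h2

end Vale.Agent.P069
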