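import Vale.Agent.P069.AMUC

open Set

namespace Vale.Agent.P069

section General

variable {E : Type*} [NormedAddCommGroup E] [NormedSpace ℝ E]

/-- A weakly null sequence gets close to every closed subspace of finite codimension. -/
lemma dist_cof {F : Submodule ℝ E} (hF : F ∈ Cof E) (e : ℕ → E)
    (he : ∀ Φ : StrongDual ℝ E, Filter.Tendsto (fun k => Φ (e k)) Filter.atTop (nhds 0))
    {η : ℝ} (hη : 0 < η) : ∀ᶠ k in Filter.atTop, ∃ y ∈ F, ‖e k - y‖ < η := by
  have hcl : IsClosed (F : Set E) := hF.1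
  have hfd : FiniteDimensional ℝ (E ⧸ F) := hF.2
  have : IsClosed (F.toAddSubgroup : Set E) := hcl
  set q : E →L[ℝ] (E ⧸ F) := F.mkQL with hq
  set b := Module.finBasis ℝ (E ⧸ F) with hb
  have h1 : Filter.Tendsto (fun k => q (e k)) Filter.atTop (nhds 0) := by
    have h2 : ∀ i, Filter.Tendsto (fun k => (b.coord i) (q (e k))) Filter.atTop (nhds 0) := by
      intro i
      exact he ((LinearMap.toContinuousLinearMap (b.coord i)).comp q)
    have h3 : (fun k => q (e k)) = fun k => ∑ i, (b.coord i) (q (e k)) • b i := by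
      funext k
      simp only [Module.Basis.coord_apply]
      exact (b.sum_repr _).symm
    rw [h3]
    have h4 : Filter.Tendsto (fun k => ∑ i, (b.coord i) (q (e k)) • b i) Filter.atTop
        (nhds (∑ i, (0 : ℝ) • b i)) := by
      apply tendsto_finsetSum
      intro i _
      exact (h2 i).smul_const _
    simpa using h4
  have h5 : Filter.Tendsto (fun k => ‖q (e k)‖) Filter.atTop (nhds 0) := by
    simpa using h1.norm
  filter_upwards [(tendsto_order.1 h5).2 (η / 2) (half_pos hη)] with k hk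
  obtain ⟨m, hm1, hm2⟩ := Submodule.Quotient.norm_mk_lt (q (e k)) (half_pos hη)
  refine ⟨e k - m, ?_, ?_⟩
  · rw [← Submodule.Quotient.mk_eq_zero, Submodule.Quotient.mk_sub, hm1]
    exact sub_self _
  · rw [sub_sub_cancel]
    linarith

/-- One step of growth in an AUC norm. -/
lemma growth (N : Seminorm ℝ E) {c C : ℝ} (hc : 0 < c) (hC : 0 < C)
    (hN : ∀ x : E, c * ‖x‖ ≤ N x ∧ N x ≤ C * ‖x‖) {δ : ℝ} (hδ : 0 < δ)
    (hmod : (δ : EReal) < aucModulus N (c / (2 * C)))
    (x : E) (hx1 : 1 ≤ ‖x‖) (hx2 : ‖x‖ ≤ 1) (e : ℕ → E) (he1 : ∀ k, 1 ≤ ‖e k‖)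
    (he : ∀ Φ : StrongDual ℝ E, Filter.Tendsto (fun k => Φ (e k)) Filter.atTop (nhds 0)) :
    ∃ k, (1 + δ / 2) * N x ≤ N (x + e k) := by
  set t : ℝ := c / (2 * C) with ht
  have ht0 : 0 < t := by positivity
  have hNx : 0 < N x := lt_of_lt_of_le (by positivity) (hN x).1
  have hNxC : N x ≤ C := (hN x).2.trans (by nlinarith)
  have hx' : N ((N x)⁻¹ • x) = 1 := by
    rw [map_smul_eq_mul, Real.norm_of_nonneg (by positivity), inv_mul_cancel₀ hNx.ne']
  have h1 := lt_of_lt_of_le hmod (iInf_le _ (⟨(N x)⁻¹ • x, hx'⟩ : {x : E // N x = 1}))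
  obtain ⟨⟨F, hF⟩, h2⟩ := lt_iSup_iff.1 h1
  have h3 : ∀ y ∈ F, N y = 1 → 1 + δ < N ((N x)⁻¹ • x + t • y) := by
    intro y hy hy1
    have h4 := lt_of_lt_of_le h2 (iInf_le _ (⟨y, hy, hy1⟩ : {y : E // y ∈ F ∧ N y = 1}))
    rw [EReal.coe_lt_coe_iff] at h4
    linarith
  set η : ℝ := min (c / 2) (δ / 2 * N x) / C with hη
  have hη0 : 0 < η := by positivity
  obtain ⟨k, y, hyF, hyk⟩ := (dist_cof hF e he hη0).exists
  refine ⟨k, ?_⟩
  have h5 : N (e k - y) ≤ min (c / 2) (δ / 2 * N x) := by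
    refine (hN _).2.trans ?_
    have : C * ‖e k - y‖ ≤ C * η := by gcongr
    refine this.trans (le_of_eq ?_)
    rw [hη]; field_simp
  have h6 : c / 2 ≤ N y := by
    have h7 : N (e k) ≤ N (e k - y) + N y := by
      have := map_add_le_add N (e k - y) y
      simpa using this
    have h8 : c ≤ N (e k) := by
      refine le_trans ?_ (hN _).1
      nlinarith [he1 k]
    have := min_le_left (c / 2) (δ / 2 * N x)
    linarith
  have hNy : 0 < N y := lt_of_lt_of_le (by positivity) h6
  have hy' : N ((N y)⁻¹ • y) = 1 := by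
    rw [map_smul_eq_mul, Real.norm_of_nonneg (by positivity), inv_mul_cancel₀ hNy.ne']
  have h9 := h3 _ (F.smul_mem (N y)⁻¹ hyF) hy'
  -- convexity
  set s : ℝ := N y / N x with hs
  have hs0 : 0 < s := by positivity
  have hts : t ≤ s := by
    rw [hs, ht, div_le_div_iff₀ (by positivity) hNx]
    nlinarith
  have h10 : (N x)⁻¹ • x + t • (N y)⁻¹ • y =
      (1 - t / s) • ((N x)⁻¹ • x) + (t / s) • ((N x)⁻¹ • (x + y)) := by
    have hsne : s ≠ 0 := hs0.ne'
    have e1 : t / s * (N x)⁻¹ = t * (N y)⁻¹ := by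
      rw [hs]; field_simp
    rw [smul_add ((N x)⁻¹), smul_add (t / s), smul_smul (t / s) _ y, e1, smul_smul t, sub_smul,
      one_smul]
    abel
  have h11 : N ((N x)⁻¹ • x + t • (N y)⁻¹ • y) ≤ (1 - t / s) * 1 + (t / s) * ((N x)⁻¹ * N (x + y)) := by
    rw [h10]
    refine (map_add_le_add N _ _).trans ?_
    have hts1 : t / s ≤ 1 := by rw [div_le_one hs0]; exact hts
    rw [map_smul_eq_mul N (1 - t / s), map_smul_eq_mul N (t / s), hx',
      map_smul_eq_mul N ((N x)⁻¹), Real.norm_of_nonneg (by linarith),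
      Real.norm_of_nonneg (by positivity), Real.norm_of_nonneg (by positivity)]
  have h12 : 1 + δ ≤ (N x)⁻¹ * N (x + y) := by
    have hts0 : 0 < t / s := by positivity
    have hts1 : t / s ≤ 1 := by rw [div_le_one hs0]; exact hts
    by_contra hcon
    push Not at hcon
    have h13 : (t / s) * ((N x)⁻¹ * N (x + y)) < (t / s) * (1 + δ) :=
      mul_lt_mul_of_pos_left hcon hts0
    nlinarith
  have h14 : (1 + δ) * N x ≤ N (x + y) := by
    rw [inv_mul_eq_div, le_div_iff₀ hNx] at h12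
    exact h12
  have h15 : N (x + y) ≤ N (x + e k) + N (e k - y) := by
    have h16 : x + y = (x + e k) - (e k - y) := by abel
    calc N (x + y) = N ((x + e k) - (e k - y)) := by rw [← h16]
      _ ≤ _ := map_sub_le_add N _ _
  have := min_le_right (c / 2) (δ / 2 * N x)
  linarith

end General

/-- branch sums -/
noncomputable def del (l : List ℕ) : X :=
  LinearMap.mkContinuous
    { toFun := fun z => V z.fn l
      map_add' := by intro z w; rw [Z.fn_add, V_add]
      map_smul' := by intro c z; rw [Z.fn_smul, V_smul, RingHom.id_apply, smul_eq_mul] } 1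
    (by
      intro z
      simp only [LinearMap.coe_mk, AddHom.coe_mk, one_mul]
      have h : IsFam {l} (fun _ : List ℕ => ([] : List ℕ)) (fun l => l) :=
        ⟨fun _ _ => List.nil_suffix, by simp⟩
      have := energy_le _ _ _ h z
      rw [Finset.sum_singleton, V_nil', sub_zero] at this
      exact abs_le_of_sq_le_sq this (norm_nonneg z))

lemma del_apply (l : List ℕ) (z : Z) : del l z = V z.fn l := rfl

lemma norm_del_le (l : List ℕ) : ‖del l‖ ≤ 1 :=
  LinearMap.mkContinuous_norm_le _ zero_le_one _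

lemma del_cons (a : ℕ) (l : List ℕ) : del (a :: l) = del l + co (a :: l) := by
  ext z
  rw [del_apply, V_cons]
  rfl

lemma one_le_norm_of {x : X} {l : List ℕ} (hl : good l) (h : x (ev l hl) = 1) : 1 ≤ ‖x‖ := by
  have h1 := x.le_opNorm (ev l hl)
  rw [h, norm_one] at h1
  have h2 := norm_ev_le l hl
  nlinarith [norm_nonneg x]

lemma one_le_norm_del {l : List ℕ} (hl : good l) : 1 ≤ ‖del l‖ := by
  apply one_le_norm_of hl
  rw [del_apply, V, Finset.sum_eq_single l]
  · simp [ev_fn]
  · intro s _ hs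
    rw [ev_fn, if_neg hs]
  · intro h
    exact absurd (mem_tl.2 List.suffix_rfl) h

lemma one_le_norm_co {l : List ℕ} (hl : good l) : 1 ≤ ‖co l‖ := by
  apply one_le_norm_of hl
  rw [co_apply, ev_fn, if_pos rfl]

/-- Coordinates along the children of a node are weakly null. -/
lemma weak_null (l : List ℕ) (Φ : StrongDual ℝ X) :
    Filter.Tendsto (fun k : ℕ => Φ (co (k :: l))) Filter.atTop (nhds 0) := by
  classical
  have hbound : ∀ A : Finset ℕ, ∑ k ∈ A, (Φ (co (k :: l))) ^ 2 ≤ ‖Φ‖ ^ 2 := by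
    intro A
    set s := ∑ k ∈ A, (Φ (co (k :: l))) ^ 2 with hs
    have hs0 : 0 ≤ s := Finset.sum_nonneg fun _ _ => sq_nonneg _
    set u : X := ∑ k ∈ A, Φ (co (k :: l)) • co (k :: l) with hu
    have hun : ‖u‖ ≤ √s := by
      apply ContinuousLinearMap.opNorm_le_bound _ (Real.sqrt_nonneg _)
      intro z
      have e : u z = ∑ k ∈ A, Φ (co (k :: l)) * z.fn (k :: l) := by
        rw [hu]
        have h1 : (∑ k ∈ A, Φ (co (k :: l)) • co (k :: l)) z =
            ∑ k ∈ A, (Φ (co (k :: l)) • co (k :: l)) z :=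
          map_sum (ContinuousLinearMap.apply ℝ ℝ z) _ _
        rw [h1]
        rfl
      rw [e, Real.norm_eq_abs]
      have h2 : |∑ k ∈ A, Φ (co (k :: l)) * z.fn (k :: l)| ≤
          √s * √(∑ k ∈ A, z.fn (k :: l) ^ 2) := by
        apply abs_le_of_sq_le_sq _ (by positivity)
        rw [mul_pow, Real.sq_sqrt hs0, Real.sq_sqrt (Finset.sum_nonneg fun _ _ => sq_nonneg _)]
        exact Finset.sum_mul_sq_le_sq_mul_sq _ _ _
      refine h2.trans ?_
      gcongr
      have h3 := sum_sq_le (A.image (fun k => k :: l)) z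
      rw [Finset.sum_image (by intro a _ b _ h; simpa using h)] at h3
      calc √(∑ k ∈ A, z.fn (k :: l) ^ 2) ≤ √(‖z‖ ^ 2) := Real.sqrt_le_sqrt h3
        _ = ‖z‖ := Real.sqrt_sq (norm_nonneg z)
    have h4 : s ≤ ‖Φ‖ * √s := by
      calc s = Φ u := by
            rw [hu, map_sum, hs]
            apply Finset.sum_congr rfl
            intro k _
            rw [map_smul, smul_eq_mul, sq]
        _ ≤ ‖Φ‖ * ‖u‖ := (le_abs_self _).trans (Φ.le_opNorm u)
        _ ≤ ‖Φ‖ * √s := by gcongr
    rcases eq_or_lt_of_le hs0 with h5 | h5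
    · rw [← h5]; positivity
    · have h6 : √s ≤ ‖Φ‖ := by
        have h7 : √s * √s ≤ ‖Φ‖ * √s := by rw [Real.mul_self_sqrt hs0]; exact h4
        exact le_of_mul_le_mul_right h7 (Real.sqrt_pos.2 h5)
      calc s = √s ^ 2 := (Real.sq_sqrt hs0).symm
        _ ≤ ‖Φ‖ ^ 2 := by gcongr
  have hsum : Summable (fun k : ℕ => (Φ (co (k :: l))) ^ 2) :=
    summable_of_sum_le (fun _ => sq_nonneg _) hbound
  have h1 := hsum.tendsto_atTop_zero
  have h2 : Filter.Tendsto (fun k : ℕ => √((Φ (co (k :: l))) ^ 2)) Filter.atTop (nhds 0) := by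
    have h3 := (Real.continuous_sqrt.tendsto 0).comp h1
    rw [Real.sqrt_zero] at h3
    exact h3
  simp only [Real.sqrt_sq_eq_abs] at h2
  exact (tendsto_zero_iff_abs_tendsto_zero _).2 h2

lemma good_cons {a : ℕ} {l : List ℕ} (hl : good l) (h : l.length < comp l) : good (a :: l) := by
  refine ⟨by simp, ?_⟩
  have h1 : comp l = comp (a :: l) := comp_suffix (List.suffix_cons a l) hl.1
  have h2 : (a :: l).getLastD 0 = comp l := h1.symm
  rw [h2]
  simpa using h

theorem not_auc_X : ¬ AUCRenormable X := by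
  rintro ⟨N, ⟨c, hc, C, hC, hN⟩, hauc⟩
  have ht0 : 0 < c / (2 * C) := by positivity
  obtain ⟨δ, hδ1, hδ2⟩ := EReal.lt_iff_exists_real_btwn.1 (hauc _ ht0)
  rw [EReal.coe_pos] at hδ1
  have key : ∀ n : ℕ, 1 ≤ n → ∀ j : ℕ, j + 1 ≤ n → ∃ l : List ℕ, good l ∧ comp l = n ∧
      l.length = j + 1 ∧ c * (1 + δ / 2) ^ j ≤ N (del l) := by
    intro n hn j
    induction j with
    | zero =>
      intro _
      have hg : good [n] := ⟨by simp, by simpa using hn⟩
      refine ⟨[n], hg, rfl, rfl, ?_⟩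
      rw [pow_zero, mul_one]
      refine le_trans ?_ (hN _).1
      nlinarith [one_le_norm_del hg]
    | succ j ih =>
      intro hj
      obtain ⟨l, hg, hcomp, hlen, hl⟩ := ih (by omega)
      have hlt : l.length < comp l := by omega
      obtain ⟨k, hk⟩ := growth N hc hC hN hδ1 hδ2 (del l) (one_le_norm_del hg) (norm_del_le l)
        (fun k => co (k :: l)) (fun k => one_le_norm_co (good_cons hg hlt)) (weak_null l)
      refine ⟨k :: l, good_cons hg hlt, ?_, by simp [hlen], ?_⟩
      · rw [← comp_suffix (List.suffix_cons k l) hg.1, hcomp]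
      · rw [del_cons]
        refine le_trans ?_ hk
        rw [pow_succ]
        nlinarith
  have hbig : Filter.Tendsto (fun j : ℕ => (1 + δ / 2) ^ j) Filter.atTop Filter.atTop :=
    tendsto_pow_atTop_atTop_of_one_lt (by linarith)
  obtain ⟨j, hj⟩ := (hbig.eventually (Filter.eventually_gt_atTop (C / c))).exists
  obtain ⟨l, _, _, _, hl⟩ := key (j + 1) (by omega) j le_rfl
  have h1 : N (del l) ≤ C := (hN _).2.trans (by nlinarith [norm_del_le l])
  rw [div_lt_iff₀ hc] at hj
  linarith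

theorem infinite_dim_X : ¬ FiniteDimensional ℝ X := by
  intro h
  have hbot : (⊥ : Submodule ℝ X) ∈ Cof X := by
    refine ⟨?_, inferInstance⟩
    simp
  have hg : good [2] := ⟨by simp, by simp⟩
  have h1 := dist_cof hbot (fun k => co (k :: [2])) (weak_null [2]) one_pos
  obtain ⟨k, y, hy, hk⟩ := h1.exists
  rw [Submodule.mem_bot] at hy
  subst hy
  rw [sub_zero] at hk
  have h2 : good (k :: [2]) := good_cons hg (by simp [comp])
  linarith [one_le_norm_co h2]

end Vale.Agent.P069
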