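import Vale.Agent.P069.ZDecomp
import Vale.Agent.P069.Defs

open Set

namespace Vale.Agent.P069

/-- The space of the counterexample: the dual of `Z`. -/
abbrev X : Type := StrongDual ℝ Z

/-- coordinate functional -/
noncomputable def co (l : List ℕ) : X :=
  LinearMap.mkContinuous
    { toFun := fun z => z.fn l
      map_add' := by intro z w; rw [Z.fn_add, Pi.add_apply]
      map_smul' := by intro c z; rw [Z.fn_smul, Pi.smul_apply, RingHom.id_apply] } 1
    (by
      intro z
      simp only [LinearMap.coe_mk, AddHom.coe_mk, one_mul]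
      exact fn_le_norm z l)

lemma co_apply (l : List ℕ) (z : Z) : co l z = z.fn l := rfl

lemma pre_RE (l : {l : List ℕ // good l}) (x : X) : pre (RE l) x = x (ev l.1 l.2) • co l.1 := by
  ext z
  rw [pre_apply, ContinuousLinearMap.comp_apply, RE_apply, map_smul]
  simp only [smul_apply, co_apply, smul_eq_mul]
  ring

lemma pre_pre_RE (l : {l : List ℕ // good l}) (Φ : StrongDual ℝ X) :
    pre (pre (RE l)) Φ = NormedSpace.inclusionInDoubleDual ℝ Z (Φ (co l.1) • ev l.1 l.2) := by
  ext x
  rw [pre_apply, ContinuousLinearMap.comp_apply, pre_RE, map_smul,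
    NormedSpace.dual_def, map_smul, smul_eq_mul, smul_eq_mul]
  ring

lemma mem_closure_of_hasSum {F : Type*} [NormedAddCommGroup F] [NormedSpace ℝ F]
    (M0 : Submodule ℝ F) {κ : ℕ → Type*} (g : ∀ n, κ n → F) (s : ℕ → F) (Φ : F)
    (h1 : ∀ n k, g n k ∈ M0) (h2 : ∀ n, HasSum (g n) (s n)) (h3 : HasSum s Φ) :
    Φ ∈ closure (M0 : Set F) := by
  have hMc : IsClosed (M0.topologicalClosure : Set F) := Submodule.isClosed_topologicalClosure _
  have h4 : ∀ n, s n ∈ M0.topologicalClosure := by
    intro n
    have hs := h2 n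
    rw [HasSum, SummationFilter.unconditional_filter] at hs
    apply hMc.mem_of_tendsto hs
    apply Filter.Eventually.of_forall
    intro A
    exact Submodule.sum_mem _ fun i _ => M0.le_topologicalClosure (h1 _ _)
  have h5 : Φ ∈ M0.topologicalClosure := by
    rw [HasSum, SummationFilter.unconditional_filter] at h3
    apply hMc.mem_of_tendsto h3
    apply Filter.Eventually.of_forall
    intro A
    exact Submodule.sum_mem _ fun i _ => h4 _
  exact h5

theorem dense_incl : DenseRange (NormedSpace.inclusionInDoubleDual ℝ Z) := by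
  intro Φ
  have h := mem_closure_of_hasSum
    (M0 := LinearMap.range (NormedSpace.inclusionInDoubleDual ℝ Z).toLinearMap)
    (κ := fun n => {l : List ℕ // good l ∧ comp l = n})
    (g := fun n l => pre (pre (RE ⟨l.1, l.2.1⟩)) Φ)
    (s := fun n => pre (pre (RC n)) Φ) (Φ := Φ)
    (by
      intro n l
      rw [pre_pre_RE]
      exact ⟨_, rfl⟩)
    (fun n => (decompE n).dual.dual.sum Φ)
    (by
      have hs := decompC.dual.dual.sum Φ
      have e : pre (pre (ContinuousLinearMap.id ℝ Z)) Φ = Φ := by
        ext x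
        rfl
      rw [e] at hs
      exact hs)
  exact h

theorem reflexive_X : IsReflexiveSpace X := by
  intro Ψ
  refine ⟨Ψ.comp (NormedSpace.inclusionInDoubleDual ℝ Z), ?_⟩
  have hc1 : Continuous (fun Φ : StrongDual ℝ X =>
      (NormedSpace.inclusionInDoubleDual ℝ X
        (Ψ.comp (NormedSpace.inclusionInDoubleDual ℝ Z))) Φ) :=
    ContinuousLinearMap.continuous _
  have hc2 : Continuous (fun Φ : StrongDual ℝ X => Ψ Φ) := Ψ.continuous
  ext Φ
  have := dense_incl.equalizer hc1 hc2 (by
    funext z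
    simp only [Function.comp_apply, NormedSpace.dual_def, ContinuousLinearMap.comp_apply])
  exact congrFun this Φ

/-- Tail property of elements of `X`. -/
def tailSub : Submodule ℝ X where
  carrier := {x | ∀ ε > 0, ∃ A : Finset (List ℕ), ∀ w : Z, (∀ l ∈ A, w.fn l = 0) →
    |x w| ≤ ε * ‖w‖}
  add_mem' := by
    classical
    intro x y hx hy ε hε
    obtain ⟨A, hA⟩ := hx (ε / 2) (half_pos hε)
    obtain ⟨B, hB⟩ := hy (ε / 2) (half_pos hε)
    refine ⟨A ∪ B, fun w hw => ?_⟩
    have h1 := hA w (fun l hl => hw l (Finset.mem_union_left _ hl))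
    have h2 := hB w (fun l hl => hw l (Finset.mem_union_right _ hl))
    have h3 : (x + y) w = x w + y w := rfl
    rw [h3]
    refine (abs_add_le _ _).trans ?_
    linarith
  zero_mem' := by
    intro ε hε
    refine ⟨∅, fun w _ => ?_⟩
    have h3 : (0 : X) w = 0 := rfl
    rw [h3, abs_zero]
    positivity
  smul_mem' := by
    intro c x hx ε hε
    have hc : 0 < |c| + 1 := by positivity
    obtain ⟨A, hA⟩ := hx (ε / (|c| + 1)) (div_pos hε hc)
    refine ⟨A, fun w hw => ?_⟩
    have h1 := hA w hw
    have h3 : (c • x) w = c * x w := rfl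
    rw [h3, abs_mul]
    calc |c| * |x w| ≤ (|c| + 1) * (ε / (|c| + 1) * ‖w‖) := by
          gcongr
          linarith
      _ = ε * ‖w‖ := by
          field_simp

lemma isClosed_tailSub : IsClosed (tailSub : Set X) := by
  rw [← isSeqClosed_iff_isClosed]
  intro x y hx hxy ε hε
  rw [Metric.tendsto_atTop] at hxy
  obtain ⟨N, hN⟩ := hxy (ε / 2) (half_pos hε)
  obtain ⟨A, hA⟩ := hx N (ε / 2) (half_pos hε)
  refine ⟨A, fun w hw => ?_⟩
  have h1 := hA w hw
  have h2 := hN N le_rfl
  rw [dist_eq_norm] at h2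
  have h3 : |(x N - y) w| ≤ ‖x N - y‖ * ‖w‖ := (x N - y).le_opNorm w
  have h4 : (x N - y) w = x N w - y w := rfl
  rw [h4] at h3
  have h5 : |y w| ≤ |x N w| + |x N w - y w| := by
    have := abs_sub_abs_le_abs_sub (y w) (x N w)
    rw [abs_sub_comm (y w)] at this
    linarith
  have h6 : ‖x N - y‖ * ‖w‖ ≤ ε / 2 * ‖w‖ := by gcongr
  linarith

theorem mem_tailSub (x : X) : x ∈ tailSub := by
  have h1 : ∀ (l : {l : List ℕ // good l}) (x : X), pre (RE l) x ∈ tailSub := by
    intro l x ε hε
    refine ⟨{l.1}, fun w hw => ?_⟩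
    rw [pre_RE]
    have h3 : (x (ev l.1 l.2) • co l.1) w = x (ev l.1 l.2) * w.fn l.1 := rfl
    rw [h3, hw l.1 (Finset.mem_singleton_self _), mul_zero, abs_zero]
    positivity
  have h2 : ∀ (n : ℕ) (x : X), pre (RC n) x ∈ tailSub := by
    intro n x
    have hs := (decompE n).dual.sum x
    rw [HasSum, SummationFilter.unconditional_filter] at hs
    apply isClosed_tailSub.mem_of_tendsto hs
    apply Filter.Eventually.of_forall
    intro A
    exact Submodule.sum_mem _ fun i _ => h1 _ _
  have hs := decompC.dual.sum x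
  have e : pre (ContinuousLinearMap.id ℝ Z) x = x := by
    ext z
    rfl
  rw [e, HasSum, SummationFilter.unconditional_filter] at hs
  apply isClosed_tailSub.mem_of_tendsto hs
  apply Filter.Eventually.of_forall
  intro A
  exact Submodule.sum_mem _ fun i _ => h2 _ _

end Vale.Agent.P069
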