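import Vale.Agent.P069.NotAUC

open Set

namespace Vale.Agent.P069

theorem separable_X : TopologicalSpace.SeparableSpace X := by
  rw [← TopologicalSpace.isSeparable_univ_iff]
  have h1 : TopologicalSpace.IsSeparable
      ((Submodule.span ℝ (Set.range co) : Submodule ℝ X) : Set X) :=
    (Set.countable_range co).isSeparable.span
  refine h1.closure.mono ?_
  intro x _
  exact mem_closure_of_hasSum (F := X)
    (M0 := Submodule.span ℝ (Set.range co))
    (κ := fun n => {l : List ℕ // good l ∧ comp l = n})
    (g := fun n l => pre (RE ⟨l.1, l.2.1⟩) x)
    (s := fun n => pre (RC n) x) (Φ := x)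
    (by
      intro n l
      rw [pre_RE]
      exact Submodule.smul_mem _ _ (Submodule.subset_span ⟨_, rfl⟩))
    (fun n => (decompE n).dual.sum x)
    (by
      have hs := decompC.dual.sum x
      have e : pre (ContinuousLinearMap.id ℝ Z) x = x := by
        ext z
        rfl
      rw [e] at hs
      exact hs)

end Vale.Agent.P069
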