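import Mathlib

open Set

namespace Vale.Agent.P069

/-- The finset of suffixes of `l`. -/
def tl (l : List ℕ) : Finset (List ℕ) := l.tails.toFinset

lemma mem_tl {s l : List ℕ} : s ∈ tl l ↔ s <:+ l := by simp [tl]

lemma tl_cons (a : ℕ) (l : List ℕ) : tl (a :: l) = insert (a :: l) (tl l) := by
  ext s
  simp [mem_tl, List.suffix_cons_iff]

lemma cons_notMem_tl (a : ℕ) (l : List ℕ) : a :: l ∉ tl l := by
  rw [mem_tl]
  intro h
  have := h.length_le
  simp at this

/-- The half open segment between `p` and `b`. -/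
def seg (p b : List ℕ) : Finset (List ℕ) := tl b \ tl p

lemma mem_seg {p b s : List ℕ} : s ∈ seg p b ↔ s <:+ b ∧ ¬ s <:+ p := by
  simp [seg, mem_tl]

/-- Nodes of the forest. -/
def good (l : List ℕ) : Prop := l ≠ [] ∧ l.length ≤ l.getLastD 0

/-- Sum of `z` over all suffixes of `l`. -/
noncomputable def V (z : List ℕ → ℝ) (l : List ℕ) : ℝ := ∑ t ∈ tl l, z t

lemma V_cons (z : List ℕ → ℝ) (a : ℕ) (l : List ℕ) :
    V z (a :: l) = V z l + z (a :: l) := by
  rw [V, tl_cons, Finset.sum_insert (cons_notMem_tl a l), V, add_comm]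

lemma V_nil (z : List ℕ → ℝ) : V z [] = z [] := by
  simp [V, tl]

lemma V_sub (z : List ℕ → ℝ) {p b : List ℕ} (h : p <:+ b) :
    V z b - V z p = ∑ t ∈ seg p b, z t := by
  have hsub : tl p ⊆ tl b := by
    intro s hs
    rw [mem_tl] at *
    exact hs.trans h
  rw [V, V, seg, ← Finset.sum_sdiff hsub]
  ring

lemma V_add (z w : List ℕ → ℝ) (l : List ℕ) : V (z + w) l = V z l + V w l := by
  simp [V, Finset.sum_add_distrib]

lemma V_smul (c : ℝ) (z : List ℕ → ℝ) (l : List ℕ) : V (c • z) l = c * V z l := by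
  simp [V, Finset.mul_sum]

/-- A family of pairwise disjoint segments. -/
structure IsFam {ι : Type*} (s : Finset ι) (p b : ι → List ℕ) : Prop where
  suf : ∀ i ∈ s, p i <:+ b i
  disj : (s : Set ι).PairwiseDisjoint (fun i => seg (p i) (b i))

/-- Finite families of disjoint segments. -/
def Fam : Type := {s : Finset (List ℕ × List ℕ) // IsFam s Prod.fst Prod.snd}

/-- The finitely supported functions on the forest. -/
def Z : Type := ↥(Finsupp.supported ℝ ℝ {l : List ℕ | good l})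

noncomputable instance : AddCommGroup Z :=
  inferInstanceAs (AddCommGroup ↥(Finsupp.supported ℝ ℝ {l : List ℕ | good l}))

noncomputable instance : Module ℝ Z :=
  inferInstanceAs (Module ℝ ↥(Finsupp.supported ℝ ℝ {l : List ℕ | good l}))

/-- underlying function -/
def Z.fn (z : Z) : List ℕ → ℝ := fun l => z.1 l

/-- support -/
def Z.supp (z : Z) : Finset (List ℕ) := z.1.support

lemma Z.mem_supp (z : Z) (l : List ℕ) : l ∈ z.supp ↔ z.fn l ≠ 0 := by
  simp [Z.supp, Z.fn]

lemma Z.fn_add (z w : Z) : (z + w).fn = z.fn + w.fn := by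
  funext l; rfl

lemma Z.fn_smul (c : ℝ) (z : Z) : (c • z).fn = c • z.fn := by
  funext l; rfl

lemma Z.fn_zero : (0 : Z).fn = 0 := by
  funext l; rfl

lemma Z.ext' {z w : Z} (h : ∀ l, z.fn l = w.fn l) : z = w := by
  apply Subtype.ext
  ext l
  exact h l

lemma Z.fn_bad (z : Z) {l : List ℕ} (h : ¬ good l) : z.fn l = 0 := by
  have := z.2
  rw [Finsupp.mem_supported'] at this
  exact this l h

/-- Constructor. -/
noncomputable def Z.mk' (f : List ℕ → ℝ) (s : Finset (List ℕ)) (hs : ∀ l, f l ≠ 0 → l ∈ s)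
    (hg : ∀ l, ¬ good l → f l = 0) : Z :=
  ⟨Finsupp.onFinset s f hs, by
    rw [Finsupp.mem_supported']
    intro l hl
    simpa using hg l hl⟩

lemma Z.fn_mk' (f : List ℕ → ℝ) (s : Finset (List ℕ)) (hs : ∀ l, f l ≠ 0 → l ∈ s)
    (hg : ∀ l, ¬ good l → f l = 0) : (Z.mk' f s hs hg).fn = f := by
  funext l
  simp [Z.mk', Z.fn]

/-- measurement along a family -/
noncomputable def meas (f : Fam) : Z →ₗ[ℝ] EuclideanSpace ℝ f.1 where
  toFun z := WithLp.toLp 2 (fun q => V z.fn q.1.2 - V z.fn q.1.1)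
  map_add' z w := by
    ext q
    simp only [Z.fn_add, V_add, PiLp.add_apply]
    ring
  map_smul' c z := by
    ext q
    simp only [Z.fn_smul, V_smul, PiLp.smul_apply, smul_eq_mul, RingHom.id_apply]
    ring

lemma norm_meas_sq (f : Fam) (z : Z) :
    ‖meas f z‖ ^ 2 = ∑ q ∈ f.1, (V z.fn q.2 - V z.fn q.1) ^ 2 := by
  rw [EuclideanSpace.norm_sq_eq]
  simp only [meas, LinearMap.coe_mk, AddHom.coe_mk, Real.norm_eq_abs, sq_abs]
  exact Finset.sum_coe_sort f.1 (fun q => (V z.fn q.2 - V z.fn q.1) ^ 2)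

lemma sum_abs_seg_le {ι : Type*} (s : Finset ι) (p b : ι → List ℕ) (h : IsFam s p b) (z : Z)
    (g : ℝ → ℝ) (hg : ∀ x, 0 ≤ g x) (hg0 : g 0 = 0) :
    ∑ i ∈ s, ∑ t ∈ seg (p i) (b i), g (z.fn t) ≤ ∑ t ∈ z.supp, g (z.fn t) := by
  classical
  rw [← Finset.sum_biUnion h.disj]
  have : ∑ t ∈ s.biUnion fun i => seg (p i) (b i), g (z.fn t) =
      ∑ t ∈ (s.biUnion fun i => seg (p i) (b i)).filter (fun t => t ∈ z.supp), g (z.fn t) := by
    rw [Finset.sum_filter]
    apply Finset.sum_congr rfl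
    intro t _
    split_ifs with h1
    · rfl
    · rw [Z.mem_supp, not_not] at h1
      rw [h1, hg0]
  rw [this]
  apply Finset.sum_le_sum_of_subset_of_nonneg
  · intro t ht
    exact (Finset.mem_filter.1 ht).2
  · intro t _ _
    exact hg _

lemma norm_meas_le (f : Fam) (z : Z) : ‖meas f z‖ ≤ ∑ t ∈ z.supp, |z.fn t| := by
  have h0 : 0 ≤ ∑ t ∈ z.supp, |z.fn t| := Finset.sum_nonneg fun _ _ => abs_nonneg _
  apply le_of_sq_le_sq _ h0
  rw [norm_meas_sq]
  calc ∑ q ∈ f.1, (V z.fn q.2 - V z.fn q.1) ^ 2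
      ≤ ∑ q ∈ f.1, (∑ t ∈ seg q.1 q.2, |z.fn t|) ^ 2 := by
        apply Finset.sum_le_sum
        intro q hq
        rw [V_sub _ (f.2.suf q hq), ← sq_abs]
        gcongr
        exact Finset.abs_sum_le_sum_abs _ _
    _ ≤ (∑ q ∈ f.1, ∑ t ∈ seg q.1 q.2, |z.fn t|) ^ 2 := by
        apply Finset.sum_sq_le_sq_sum_of_nonneg
        intro q _
        exact Finset.sum_nonneg fun _ _ => abs_nonneg _
    _ ≤ (∑ t ∈ z.supp, |z.fn t|) ^ 2 := by
        gcongr
        · exact sum_abs_seg_le f.1 Prod.fst Prod.snd f.2 z (fun x => |x|) (fun x => abs_nonneg x)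
            (by simp)

/-- The embedding used to define the norm. -/
noncomputable def emb : Z →ₗ[ℝ] lp (fun f : Fam => EuclideanSpace ℝ f.1) ⊤ where
  toFun z := ⟨fun f => meas f z, by
    apply memℓp_infty
    refine ⟨∑ t ∈ z.supp, |z.fn t|, ?_⟩
    rintro _ ⟨f, rfl⟩
    exact norm_meas_le f z⟩
  map_add' z w := by
    ext1
    funext f
    exact map_add (meas f) z w
  map_smul' c z := by
    ext1
    funext f
    exact map_smul (meas f) c z

/-- singleton family -/
def Fam.single (q : List ℕ × List ℕ) (h : q.1 <:+ q.2) : Fam :=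
  ⟨{q}, ⟨by simpa using h, by simp⟩⟩

lemma emb_injective : Function.Injective emb := by
  rw [injective_iff_map_eq_zero]
  intro z hz
  have h1 : ∀ l, V z.fn l = 0 := by
    intro l
    have h2 : ‖meas (Fam.single ([], l) (List.nil_suffix)) z‖ ^ 2 = 0 := by
      have : meas (Fam.single ([], l) (List.nil_suffix)) z = 0 :=
        congrFun (congrArg Subtype.val hz) (Fam.single ([], l) (List.nil_suffix))
      rw [this]; simp
    rw [norm_meas_sq] at h2
    simp only [Fam.single, Finset.sum_singleton] at h2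
    have h3 : V z.fn [] = 0 := by
      rw [V_nil]
      exact z.fn_bad (by simp [good])
    rw [h3] at h2
    simpa using h2
  apply Z.ext'
  intro l
  cases l with
  | nil => 
    rw [z.fn_bad (by simp [good]), Z.fn_zero]; rfl
  | cons a l =>
    have := V_cons z.fn a l
    rw [h1, h1] at this
    rw [Z.fn_zero]
    simp only [Pi.zero_apply]
    linarith

noncomputable instance : NormedAddCommGroup Z :=
  NormedAddCommGroup.induced Z _ emb emb_injective

noncomputable instance : NormedSpace ℝ Z :=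
  NormedSpace.induced ℝ Z _ emb

lemma norm_def (z : Z) : ‖z‖ = ‖emb z‖ := rfl

/-- The basic upper estimate. -/
lemma norm_meas_le_norm (f : Fam) (z : Z) : ‖meas f z‖ ≤ ‖z‖ :=
  lp.norm_apply_le_norm ENNReal.top_ne_zero (emb z) f

lemma norm_le_of_meas {z : Z} {C : ℝ} (hC : 0 ≤ C) (h : ∀ f : Fam, ‖meas f z‖ ≤ C) : ‖z‖ ≤ C :=
  lp.norm_le_of_forall_le hC h

end Vale.Agent.P069
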