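import Vale.Agent.P069.Energy
import Vale.Agent.P069.Decomp

open Set

namespace Vale.Agent.P069

/-- last entry -/
def comp (l : List ℕ) : ℕ := l.getLastD 0

lemma comp_suffix {p b : List ℕ} (h : p <:+ b) (hp : p ≠ []) : comp p = comp b := by
  obtain ⟨t, rfl⟩ := h
  cases p with
  | nil => exact absurd rfl hp
  | cons a l =>
    have h1 : (a :: l).getLast? = some ((a :: l).getLast hp) := List.getLast?_eq_some_getLast hp
    simp only [comp, List.getLastD_eq_getLast?, List.getLast?_append, h1]
    rfl

lemma fn_nil (z : Z) : z.fn [] = 0 := z.fn_bad (by simp [good])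

lemma V_nil' (z : Z) : V z.fn [] = 0 := by rw [V_nil, fn_nil]

/-- restriction to a set -/
noncomputable def rest (A : Set (List ℕ)) (z : Z) : Z :=
  open Classical in
  Z.mk' (fun l => if l ∈ A then z.fn l else 0) z.supp
    (by
      intro l hl
      rw [Z.mem_supp]
      by_contra h
      simp [h] at hl)
    (by
      intro l hl
      simp [z.fn_bad hl])

lemma rest_fn (A : Set (List ℕ)) [DecidablePred (· ∈ A)] (z : Z) (l : List ℕ) :
    (rest A z).fn l = if l ∈ A then z.fn l else 0 := by
  rw [rest, Z.fn_mk']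
  congr

/-- The coordinate vector. -/
noncomputable def ev (l : List ℕ) (hl : good l) : Z :=
  open Classical in
  Z.mk' (fun s => if s = l then 1 else 0) {l} (by intro s hs; by_contra h; simp at h; simp [h] at hs)
    (by
      intro s hs
      have : s ≠ l := fun h => hs (h ▸ hl)
      simp [this])

lemma ev_fn (l : List ℕ) (hl : good l) (s : List ℕ) :
    (ev l hl).fn s = if s = l then 1 else 0 := by
  rw [ev, Z.fn_mk']

lemma seg_tail (a : ℕ) (l : List ℕ) : seg l (a :: l) = {a :: l} := by
  ext s
  rw [mem_seg, List.suffix_cons_iff, Finset.mem_singleton]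
  constructor
  · rintro ⟨h | h, h2⟩
    · exact h
    · exact absurd h h2
  · rintro rfl
    refine ⟨Or.inl rfl, fun h => ?_⟩
    have := h.length_le
    simp at this

lemma sum_sq_le (A : Finset (List ℕ)) (z : Z) : ∑ l ∈ A, z.fn l ^ 2 ≤ ‖z‖ ^ 2 := by
  classical
  set A' := A.filter (fun l => l ≠ []) with hA'
  have hfam : IsFam A' (fun l => l.tail) (fun l => l) := by
    constructor
    · intro l _
      exact List.tail_suffix l
    · intro l hl r hr hne
      rw [hA', Finset.coe_filter] at hl hr
      obtain ⟨a, l', rfl⟩ := List.exists_cons_of_ne_nil hl.2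
      obtain ⟨b, r', rfl⟩ := List.exists_cons_of_ne_nil hr.2
      simp only [Function.onFun, List.tail_cons, seg_tail]
      simpa using hne
  refine le_trans (le_of_eq ?_) (energy_le A' _ _ hfam z)
  rw [hA', Finset.sum_filter]
  apply Finset.sum_congr rfl
  intro l _
  cases l with
  | nil => simp [fn_nil]
  | cons a l =>
    simp [V_cons]

lemma norm_ev_le (l : List ℕ) (hl : good l) : ‖ev l hl‖ ≤ 1 := by
  classical
  apply norm_le_of_energy zero_le_one
  intro s hs
  have h1 : ∀ q ∈ s, (V (ev l hl).fn q.2 - V (ev l hl).fn q.1) ^ 2 =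
      ∑ t ∈ seg q.1 q.2, ((ev l hl).fn t) ^ 2 := by
    intro q hq
    rw [V_sub _ (hs.suf q hq)]
    simp only [ev_fn]
    simp only [ite_pow, one_pow, ne_eq, OfNat.ofNat_ne_zero, not_false_eq_true, zero_pow]
    rw [Finset.sum_ite_eq']
    split_ifs <;> simp
  rw [Finset.sum_congr rfl h1]
  refine (sum_abs_seg_le s _ _ hs (ev l hl) (fun x => x ^ 2) (fun x => sq_nonneg x)
    (by simp)).trans ?_
  have hsupp : (ev l hl).supp ⊆ {l} := by
    intro t ht
    rw [Z.mem_supp, ev_fn] at ht
    by_contra h
    simp at h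
    simp [h] at ht
  refine (Finset.sum_le_sum_of_subset_of_nonneg hsupp (fun _ _ _ => sq_nonneg _)).trans ?_
  simp [ev_fn]

lemma fn_le_norm (z : Z) (l : List ℕ) : |z.fn l| ≤ ‖z‖ := by
  have := sum_sq_le {l} z
  rw [Finset.sum_singleton] at this
  exact abs_le_of_sq_le_sq this (norm_nonneg z)

lemma Z.fn_sum {κ : Type*} (A : Finset κ) (f : κ → Z) (l : List ℕ) :
    (∑ i ∈ A, f i).fn l = ∑ i ∈ A, (f i).fn l := by
  classical
  induction A using Finset.induction_on with
  | empty => simp [Z.fn_zero]
  | insert a s ha ih =>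
    rw [Finset.sum_insert ha, Finset.sum_insert ha, Z.fn_add, Pi.add_apply, ih]

lemma V_sum {κ : Type*} (A : Finset κ) (f : κ → Z) (l : List ℕ) :
    V (∑ i ∈ A, f i).fn l = ∑ i ∈ A, V (f i).fn l := by
  simp only [V, Z.fn_sum]
  exact Finset.sum_comm

/-- component of `z` -/
lemma V_rest_comp (n : ℕ) (z : Z) (l : List ℕ) :
    V (rest {l | comp l = n} z).fn l = if comp l = n then V z.fn l else 0 := by
  classical
  simp only [V, rest_fn, Set.mem_ofPred_eq]
  split_ifs with h
  · apply Finset.sum_congr rfl
    intro t ht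
    rw [mem_tl] at ht
    by_cases h0 : t = []
    · subst h0; simp [fn_nil]
    · simp only [comp_suffix ht h0, h, if_true]
  · apply Finset.sum_eq_zero
    intro t ht
    rw [mem_tl] at ht
    by_cases h0 : t = []
    · subst h0; simp [fn_nil]
    · simp only [comp_suffix ht h0, h, if_false]

lemma var_rest_comp (n : ℕ) (z : Z) {p b : List ℕ} (hpb : p <:+ b) :
    V (rest {l | comp l = n} z).fn b - V (rest {l | comp l = n} z).fn p =
      if comp b = n then V z.fn b - V z.fn p else 0 := by
  rw [V_rest_comp, V_rest_comp]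
  by_cases h0 : p = []
  · subst h0
    rw [V_nil']
    simp
  · rw [comp_suffix hpb h0]
    split_ifs <;> simp

lemma norm_rest_comp_le (n : ℕ) (z : Z) : ‖rest {l | comp l = n} z‖ ≤ ‖z‖ := by
  apply norm_le_of_var
  intro p b hpb
  rw [var_rest_comp n z hpb]
  split_ifs
  · exact le_rfl
  · simp

/-- projection onto a component, continuous linear -/
noncomputable def RC (n : ℕ) : Z →L[ℝ] Z :=
  LinearMap.mkContinuous
    { toFun := fun z => rest {l | comp l = n} z
      map_add' := by
        classical
        intro z w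
        apply Z.ext'
        intro l
        simp only [rest_fn, Z.fn_add, Pi.add_apply]
        split_ifs <;> simp
      map_smul' := by
        classical
        intro c z
        apply Z.ext'
        intro l
        simp only [rest_fn, Z.fn_smul, Pi.smul_apply, smul_eq_mul, RingHom.id_apply]
        split_ifs <;> simp } 1
    (by intro z; rw [one_mul]; exact norm_rest_comp_le n z)

lemma RC_apply (n : ℕ) (z : Z) : RC n z = rest {l | comp l = n} z := rfl

lemma RC_fn (n : ℕ) (z : Z) (l : List ℕ) : (RC n z).fn l = if comp l = n then z.fn l else 0 := by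
  classical
  rw [RC_apply, rest_fn]
  rfl

lemma var_RC (n : ℕ) (z : Z) {p b : List ℕ} (hpb : p <:+ b) :
    V (RC n z).fn b - V (RC n z).fn p =
      if comp b = n then V z.fn b - V z.fn p else 0 := var_rest_comp n z hpb

/-- coordinate projection, continuous linear -/
noncomputable def RE (l : {l : List ℕ // good l}) : Z →L[ℝ] Z :=
  LinearMap.mkContinuous
    { toFun := fun z => z.fn l.1 • ev l.1 l.2
      map_add' := by
        intro z w
        rw [Z.fn_add, Pi.add_apply, add_smul]
      map_smul' := by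
        intro c z
        rw [Z.fn_smul, Pi.smul_apply, smul_eq_mul, mul_smul, RingHom.id_apply] } 1
    (by
      intro z
      simp only [LinearMap.coe_mk, AddHom.coe_mk]
      rw [norm_smul, one_mul, Real.norm_eq_abs]
      have h1 := fn_le_norm z l.1
      have h2 := norm_ev_le l.1 l.2
      nlinarith [norm_nonneg (ev l.1 l.2), norm_nonneg z, abs_nonneg (z.fn l.1)])

lemma RE_apply (l : {l : List ℕ // good l}) (z : Z) : RE l z = z.fn l.1 • ev l.1 l.2 := rfl

lemma RE_fn (l : {l : List ℕ // good l}) (z : Z) (s : List ℕ) :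
    (RE l z).fn s = if s = l.1 then z.fn l.1 else 0 := by
  rw [RE_apply, Z.fn_smul, Pi.smul_apply, ev_fn]
  simp

lemma exists_fam (z : Z) {ε : ℝ} (hε : 0 < ε) :
    ∃ s : Finset (List ℕ × List ℕ), IsFam s Prod.fst Prod.snd ∧
      ‖z‖ ^ 2 - ε ≤ ∑ q ∈ s, (V z.fn q.2 - V z.fn q.1) ^ 2 := by
  by_contra hcon
  push Not at hcon
  have h0 := hcon ∅ ⟨by simp, by simp⟩
  rw [Finset.sum_empty] at h0
  have h1 : ‖z‖ ≤ √(‖z‖ ^ 2 - ε) := by
    apply norm_le_of_energy (Real.sqrt_nonneg _)
    intro s hs
    rw [Real.sq_sqrt h0.le]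
    exact (hcon s hs).le
  have h2 : ‖z‖ ^ 2 ≤ ‖z‖ ^ 2 - ε := by
    calc ‖z‖ ^ 2 ≤ (√(‖z‖ ^ 2 - ε)) ^ 2 := by gcongr
      _ = _ := Real.sq_sqrt h0.le
  linarith

/-- Decomposition into components. -/
theorem decompC : Decomp RC (ContinuousLinearMap.id ℝ Z) 1 1 where
  c1 := zero_le_one
  c2 := zero_le_one
  upper A z := by
    classical
    rw [one_mul]
    have h0 : 0 ≤ ∑ i ∈ A, ‖RC i (z i)‖ ^ 2 := Finset.sum_nonneg fun _ _ => by positivity
    have h1 : ‖∑ i ∈ A, RC i (z i)‖ ≤ √(∑ i ∈ A, ‖RC i (z i)‖ ^ 2) := by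
      apply norm_le_of_energy (Real.sqrt_nonneg _)
      intro s hs
      rw [Real.sq_sqrt h0]
      have e : ∀ q ∈ s, (V (∑ i ∈ A, RC i (z i)).fn q.2 - V (∑ i ∈ A, RC i (z i)).fn q.1) ^ 2 =
          ∑ i ∈ A, (V (RC i (z i)).fn q.2 - V (RC i (z i)).fn q.1) ^ 2 := by
        intro q hq
        rw [V_sum, V_sum, ← Finset.sum_sub_distrib]
        have e2 : ∀ i, V (RC i (z i)).fn q.2 - V (RC i (z i)).fn q.1 =
            if comp q.2 = i then V (z i).fn q.2 - V (z i).fn q.1 else 0 :=
          fun i => var_RC i (z i) (hs.suf q hq)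
        simp only [e2, ite_pow, ne_eq, OfNat.ofNat_ne_zero, not_false_eq_true, zero_pow]
        rw [Finset.sum_ite_eq, Finset.sum_ite_eq]
        split_ifs <;> simp
      rw [Finset.sum_congr rfl e, Finset.sum_comm]
      apply Finset.sum_le_sum
      intro i _
      exact energy_le s _ _ hs _
    calc ‖∑ i ∈ A, RC i (z i)‖ ^ 2 ≤ (√(∑ i ∈ A, ‖RC i (z i)‖ ^ 2)) ^ 2 := by gcongr
      _ = _ := Real.sq_sqrt h0
  lower A z := by
    classical
    rw [one_mul]
    apply le_of_forall_pos_sub_le
    intro δ hδ
    have hc : (0 : ℝ) < A.card + 1 := by positivity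
    have hex := fun n : ℕ => exists_fam (RC n z) (div_pos hδ hc)
    choose f hf1 hf2 using hex
    set g : ℕ → Finset (List ℕ × List ℕ) := fun n => (f n).filter (fun q => comp q.2 = n) with hg
    have hfam : IsFam (A.sigma g) (fun k => k.2.1) (fun k => k.2.2) := by
      constructor
      · rintro ⟨n, q⟩ hk
        rw [Finset.mem_sigma] at hk
        exact (hf1 n).suf q (Finset.mem_filter.1 hk.2).1
      · rintro ⟨n, q⟩ hk ⟨m, r⟩ hk' hne
        rw [Finset.mem_coe, Finset.mem_sigma] at hk hk'
        have hq := Finset.mem_filter.1 hk.2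
        have hr := Finset.mem_filter.1 hk'.2
        simp only at hq hr
        by_cases hnm : n = m
        · subst hnm
          have hqr : q ≠ r := fun h => hne (by rw [h])
          exact (hf1 n).disj hq.1 hr.1 hqr
        · rw [Function.onFun, Finset.disjoint_left]
          intro x hx hx'
          rw [mem_seg] at hx hx'
          simp only at hx hx'
          have hx0 : x ≠ [] := by
            rintro rfl
            exact hx.2 List.nil_suffix
          apply hnm
          rw [← hq.2, ← hr.2, ← comp_suffix hx.1 hx0, ← comp_suffix hx'.1 hx0]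
    have h1 := energy_le _ _ _ hfam z
    rw [Finset.sum_sigma] at h1
    have h2 : ∀ n ∈ A, ‖RC n z‖ ^ 2 ≤
        ∑ q ∈ g n, (V z.fn q.2 - V z.fn q.1) ^ 2 + δ / (A.card + 1) := by
      intro n _
      have h3 := hf2 n
      have h4 : ∑ q ∈ f n, (V (RC n z).fn q.2 - V (RC n z).fn q.1) ^ 2 =
          ∑ q ∈ g n, (V z.fn q.2 - V z.fn q.1) ^ 2 := by
        rw [hg, Finset.sum_filter]
        apply Finset.sum_congr rfl
        intro q hq
        rw [var_RC n z ((hf1 n).suf q hq)]
        split_ifs <;> simp
      linarith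
    have h5 := Finset.sum_le_sum h2
    rw [Finset.sum_add_distrib, Finset.sum_const, nsmul_eq_mul] at h5
    have h6 : (A.card : ℝ) * (δ / (A.card + 1)) ≤ δ := by
      rw [mul_div_assoc', div_le_iff₀ hc]
      nlinarith
    linarith
  sum z := by
    classical
    have hs : HasSum (fun i => RC i z) (∑ i ∈ z.supp.image comp, RC i z) := by
      apply hasSum_sum_of_ne_finset_zero
      intro n hn
      apply Z.ext'
      intro l
      rw [RC_fn, Z.fn_zero]
      split_ifs with h
      · by_contra hne
        apply hn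
        rw [Finset.mem_image]
        exact ⟨l, (Z.mem_supp z l).2 hne, h⟩
      · rfl
    have he : ∑ i ∈ z.supp.image comp, RC i z = (ContinuousLinearMap.id ℝ Z) z := by
      apply Z.ext'
      intro l
      rw [Z.fn_sum, ContinuousLinearMap.id_apply]
      simp only [RC_fn]
      by_cases hl : z.fn l = 0
      · rw [hl]; simp
      · rw [Finset.sum_ite_eq_of_mem]
        rw [Finset.mem_image]
        exact ⟨l, (Z.mem_supp z l).2 hl, rfl⟩
    rw [← he]
    exact hs
  idem n z := by
    apply Z.ext'
    intro l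
    simp only [RC_fn]
    split_ifs <;> rfl
  contr n z := norm_rest_comp_le n z

lemma card_good_comp (n : ℕ) (b : List ℕ) :
    ((tl b).filter (fun l => l ≠ [] ∧ l.length ≤ n)).card ≤ n := by
  classical
  have h1 : ((tl b).filter (fun l => l ≠ [] ∧ l.length ≤ n)).image List.length ⊆ Finset.Icc 1 n := by
    intro k hk
    rw [Finset.mem_image] at hk
    obtain ⟨l, hl, rfl⟩ := hk
    rw [Finset.mem_filter] at hl
    rw [Finset.mem_Icc]
    exact ⟨List.length_pos_of_ne_nil hl.2.1, hl.2.2⟩
  have h2 : Set.InjOn List.length (((tl b).filter (fun l => l ≠ [] ∧ l.length ≤ n) :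
      Finset (List ℕ)) : Set (List ℕ)) := by
    intro l hl m hm hlm
    rw [Finset.mem_coe, Finset.mem_filter, mem_tl] at hl hm
    exact (List.suffix_of_suffix_length_le hl.1 hm.1 hlm.le).eq_of_length hlm
  calc _ = (((tl b).filter (fun l => l ≠ [] ∧ l.length ≤ n)).image List.length).card :=
        (Finset.card_image_of_injOn h2).symm
    _ ≤ (Finset.Icc 1 n).card := Finset.card_le_card h1
    _ = n := by simp

/-- Hilbertian upper estimate on a component. -/
lemma norm_sq_le_of_comp (n : ℕ) (u : Z) (hu : ∀ l, u.fn l ≠ 0 → comp l = n) :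
    ‖u‖ ^ 2 ≤ n * ∑ l ∈ u.supp, u.fn l ^ 2 := by
  classical
  have h0 : 0 ≤ (n : ℝ) * ∑ l ∈ u.supp, u.fn l ^ 2 := by positivity
  have h1 : ‖u‖ ≤ √((n : ℝ) * ∑ l ∈ u.supp, u.fn l ^ 2) := by
    apply norm_le_of_energy (Real.sqrt_nonneg _)
    intro s hs
    rw [Real.sq_sqrt h0]
    have e : ∀ q ∈ s, (V u.fn q.2 - V u.fn q.1) ^ 2 ≤ n * ∑ t ∈ seg q.1 q.2, u.fn t ^ 2 := by
      intro q hq
      rw [V_sub _ (hs.suf q hq)]
      have e1 : ∑ t ∈ seg q.1 q.2, u.fn t =
          ∑ t ∈ (seg q.1 q.2).filter (fun l => l ≠ [] ∧ l.length ≤ n), u.fn t := by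
        rw [Finset.sum_filter]
        apply Finset.sum_congr rfl
        intro t _
        split_ifs with ht
        · rfl
        · by_contra hne
          apply ht
          have hc := hu t hne
          have hg : good t := by
            by_contra hg
            exact hne (u.fn_bad hg)
          refine ⟨hg.1, ?_⟩
          rw [← hc]
          exact hg.2
      rw [e1]
      refine (sq_sum_le_card_mul_sum_sq).trans ?_
      gcongr
      · refine le_trans (Finset.card_le_card ?_) (card_good_comp n q.2)
        apply Finset.filter_subset_filter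
        exact Finset.sdiff_subset
      · exact Finset.filter_subset _ _
    refine (Finset.sum_le_sum e).trans ?_
    rw [← Finset.mul_sum]
    gcongr
    exact sum_abs_seg_le s _ _ hs u (fun x => x ^ 2) (fun x => sq_nonneg x) (by simp)
  calc ‖u‖ ^ 2 ≤ (√((n : ℝ) * ∑ l ∈ u.supp, u.fn l ^ 2)) ^ 2 := by gcongr
    _ = _ := Real.sq_sqrt h0

/-- Decomposition of a component into coordinates. -/
theorem decompE (n : ℕ) :
    Decomp (fun l : {l : List ℕ // good l ∧ comp l = n} => RE ⟨l.1, l.2.1⟩) (RC n) n 1 where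
  c1 := by positivity
  c2 := zero_le_one
  upper A z := by
    classical
    set u : Z := ∑ i ∈ A, RE ⟨i.1, i.2.1⟩ (z i) with hu
    have hufn : ∀ l, u.fn l = ∑ i ∈ A, if l = i.1 then (z i).fn i.1 else 0 := by
      intro l
      rw [hu, Z.fn_sum]
      apply Finset.sum_congr rfl
      intro i _
      rw [RE_fn]
    have huc : ∀ l, u.fn l ≠ 0 → comp l = n := by
      intro l hl
      rw [hufn] at hl
      obtain ⟨i, _, hi⟩ := Finset.exists_ne_zero_of_sum_ne_zero hl
      have : l = i.1 := by
        by_contra h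
        simp [h] at hi
      rw [this]
      exact i.2.2
    refine (norm_sq_le_of_comp n u huc).trans ?_
    gcongr
    have hsub : u.supp ⊆ A.image (fun i => i.1) := by
      intro l hl
      rw [Z.mem_supp, hufn] at hl
      obtain ⟨i, hi1, hi⟩ := Finset.exists_ne_zero_of_sum_ne_zero hl
      have : l = i.1 := by
        by_contra h
        simp [h] at hi
      rw [Finset.mem_image]
      exact ⟨i, hi1, this.symm⟩
    calc ∑ l ∈ u.supp, u.fn l ^ 2 ≤ ∑ l ∈ A.image (fun i => i.1), u.fn l ^ 2 :=
          Finset.sum_le_sum_of_subset_of_nonneg hsub (fun _ _ _ => sq_nonneg _)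
      _ = ∑ i ∈ A, u.fn i.1 ^ 2 := by
          rw [Finset.sum_image]
          intro i _ j _ hij
          exact Subtype.ext hij
      _ ≤ ∑ i ∈ A, ‖RE ⟨i.1, i.2.1⟩ (z i)‖ ^ 2 := by
          apply Finset.sum_le_sum
          intro i hi
          have e : u.fn i.1 = (z i).fn i.1 := by
            rw [hufn, Finset.sum_eq_single i]
            · simp
            · intro j _ hj
              rw [if_neg]
              intro h
              exact hj (Subtype.ext h.symm)
            · intro h; exact absurd hi h
          have h1 := fn_le_norm (RE ⟨i.1, i.2.1⟩ (z i)) i.1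
          rw [RE_fn, if_pos rfl] at h1
          rw [e, ← sq_abs]
          gcongr
  lower A z := by
    classical
    rw [one_mul]
    have h1 : ∀ i ∈ A, ‖RE ⟨i.1, i.2.1⟩ z‖ ^ 2 ≤ z.fn i.1 ^ 2 := by
      intro i _
      rw [RE_apply, norm_smul, mul_pow, Real.norm_eq_abs, sq_abs]
      have h2 := norm_ev_le i.1 i.2.1
      have h3 : ‖ev i.1 i.2.1‖ ^ 2 ≤ 1 := by nlinarith [norm_nonneg (ev i.1 i.2.1)]
      nlinarith [sq_nonneg (z.fn i.1)]
    refine (Finset.sum_le_sum h1).trans ?_
    have h2 := sum_sq_le (A.image (fun i => i.1)) z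
    rw [Finset.sum_image] at h2
    · exact h2
    · intro i _ j _ hij
      exact Subtype.ext hij
  sum z := by
    classical
    set B : Finset {l : List ℕ // good l ∧ comp l = n} :=
      z.supp.subtype (fun l => good l ∧ comp l = n) with hB
    have hs : HasSum (fun i : {l : List ℕ // good l ∧ comp l = n} => RE ⟨i.1, i.2.1⟩ z)
        (∑ i ∈ B, RE ⟨i.1, i.2.1⟩ z) := by
      apply hasSum_sum_of_ne_finset_zero
      intro i hi
      rw [hB, Finset.mem_subtype, Z.mem_supp, not_not] at hi
      rw [RE_apply]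
      simp only
      rw [hi, zero_smul]
    have he : ∑ i ∈ B, RE ⟨i.1, i.2.1⟩ z = RC n z := by
      apply Z.ext'
      intro l
      rw [Z.fn_sum, RC_fn]
      simp only [RE_fn]
      by_cases hl : good l ∧ comp l = n
      · rw [if_pos hl.2]
        by_cases hl0 : z.fn l = 0
        · rw [hl0]
          apply Finset.sum_eq_zero
          intro i _
          split_ifs with h
          · rw [← h]; exact hl0
          · rfl
        · have hmem : (⟨l, hl⟩ : {l : List ℕ // good l ∧ comp l = n}) ∈ B := by
            rw [hB, Finset.mem_subtype, Z.mem_supp]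
            exact hl0
          rw [Finset.sum_eq_single_of_mem _ hmem]
          · simp
          · intro j _ hj
            rw [if_neg]
            intro h
            exact hj (Subtype.ext h.symm)
      · have : (if comp l = n then z.fn l else 0) = 0 := by
          split_ifs with h
          · apply z.fn_bad
            intro hg
            exact hl ⟨hg, h⟩
          · rfl
        rw [this]
        apply Finset.sum_eq_zero
        intro i _
        rw [if_neg]
        intro h
        exact hl (h ▸ i.2)
    rw [← he]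
    exact hs
  idem i z := by
    apply Z.ext'
    intro l
    simp only [RE_fn]
    split_ifs <;> rfl
  contr i z := by
    rw [RE_apply, norm_smul, Real.norm_eq_abs]
    have h1 := fn_le_norm z i.1
    have h2 := norm_ev_le i.1 i.2.1
    simp only
    nlinarith [norm_nonneg (ev i.1 i.2.1), norm_nonneg z, abs_nonneg (z.fn i.1)]

end Vale.Agent.P069
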